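import Mathlib

/-! The dyadic triangular Hilbert form. -/

namespace Vale.Agent.P075

open MeasureTheory Set

/-- the dyadic interval `[2^k n, 2^k (n+1))` -/
def dyad (k : ℤ) (n : ℕ) : Set ℝ := Ico ((2 : ℝ) ^ k * n) ((2 : ℝ) ^ k * (n + 1))

/-- the Haar function: indicator of the left half minus indicator of the right half -/
noncomputable def haar (k : ℤ) (n : ℕ) (x : ℝ) : ℝ :=
  (Ico ((2 : ℝ) ^ k * n) ((2 : ℝ) ^ k * (n + 1 / 2))).indicator (fun _ => (1 : ℝ)) x -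
    (Ico ((2 : ℝ) ^ k * (n + 1 / 2)) ((2 : ℝ) ^ k * (n + 1))).indicator (fun _ => (1 : ℝ)) x

/-- the local form attached to the triple of intervals of length `2^k` with indices `n` -/
noncomputable def locForm (F0 F1 F2 : ℝ × ℝ → ℝ) (k : ℤ) (n : ℕ × ℕ × ℕ) : ℝ :=
  (2 : ℝ) ^ (-k) * ∫ x : ℝ × ℝ × ℝ in dyad k n.1 ×ˢ dyad k n.2.1 ×ˢ dyad k n.2.2,
    F0 (x.1, x.2.1) * F1 (x.2.1, x.2.2) * F2 (x.2.2, x.1) *
      (haar k n.1 x.1 * haar k n.2.1 x.2.1 * haar k n.2.2 x.2.2)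

/-- index triples with vanishing bitwise XOR -/
def Adm : Type := {n : ℕ × ℕ × ℕ // n.1 ^^^ n.2.1 ^^^ n.2.2 = 0}

/-- the dyadic triangular Hilbert form -/
noncomputable def dyadForm (S : Finset ℤ) (ε : ℤ → ℝ) (F0 F1 F2 : ℝ × ℝ → ℝ) : ℝ :=
  ∑ k ∈ S, ε k * ∑' n : Adm, locForm F0 F1 F2 k n.1

/-- the `L^3` norm on the quadrant -/
noncomputable def norm3 (F : ℝ × ℝ → ℝ) : ℝ :=
  (∫ x in Ici (0 : ℝ) ×ˢ Ici (0 : ℝ), |F x| ^ 3) ^ (1 / 3 : ℝ)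

/-- Lebesgue measurable, bounded, compactly supported -/
def Nice (F : ℝ × ℝ → ℝ) : Prop :=
  AEMeasurable F volume ∧ (∃ M : ℝ, ∀ x, |F x| ≤ M) ∧ HasCompactSupport F

end Vale.Agent.P075
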