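import Vale.Agent.P075.Local
import Vale.Agent.P075.Defs

/-! Transfer of the discrete inequality to the continuous dyadic form. -/

namespace Vale.Agent.P075

open MeasureTheory Set

/-- a cell of length `δ` -/
def cell (δ : ℝ) (a : ℕ) : Set ℝ := Ico (δ * a) (δ * (a + 1))

/-- indicator of an interval -/
noncomputable def ind (a b x : ℝ) : ℝ := (Ico a b).indicator (fun _ => (1 : ℝ)) x

theorem ind_add {a b c : ℝ} (h1 : a ≤ b) (h2 : b ≤ c) (x : ℝ) :
    ind a c x = ind a b x + ind b c x := by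
  unfold ind
  simp only [indicator, mem_Ico]
  by_cases p1 : a ≤ x <;> by_cases p2 : x < b <;> by_cases p3 : x < c <;>
    by_cases p4 : b ≤ x <;> simp [p1, p2, p3, p4] <;> linarith

theorem ind_dec {δ : ℝ} (hδ : 0 < δ) (x : ℝ) : ∀ (m n : ℕ),
    ind (δ * 2 ^ m * n) (δ * 2 ^ m * (n + 1)) x
      = ∑ i : Idx m, ind (δ * (pos m n i : ℕ)) (δ * ((pos m n i : ℕ) + 1)) x := by
  intro m
  induction m with
  | zero =>
    intro n
    have hs : ∀ f : Idx 0 → ℝ, ∑ j, f j = f () := fun f =>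
      Finset.sum_eq_single (s := (Finset.univ : Finset (Idx 0))) ()
        (fun j _ h => absurd rfl h) (fun h => absurd (Finset.mem_univ _) h)
    rw [hs]
    simp [pos]
  | succ m ih =>
    intro n
    have h0 := ih (2 * n)
    have h1 := ih (2 * n + 1)
    have hp : 0 < δ * 2 ^ m := by positivity
    have e := ind_add (a := δ * 2 ^ (m + 1) * n) (b := δ * 2 ^ m * ((2 * n + 1 : ℕ) : ℝ))
      (c := δ * 2 ^ (m + 1) * (n + 1)) (by push_cast; rw [pow_succ]; nlinarith)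
      (by push_cast; rw [pow_succ]; nlinarith) x
    have hs : ∀ f : Idx (m + 1) → ℝ, ∑ j, f j = ∑ j : Idx m, f (Sum.inl j)
        + ∑ j : Idx m, f (Sum.inr j) := fun f => Fintype.sum_sum_type (α₁ := Idx m) (α₂ := Idx m) f
    rw [e, hs]
    congr 1
    · refine Eq.trans ?_ h0
      congr 1 <;> (push_cast; ring)
    · refine Eq.trans ?_ h1
      congr 1
      push_cast; ring

theorem haar_dec (k0 : ℤ) (m n : ℕ) (x : ℝ) :
    haar (k0 + (m + 1 : ℕ)) n x = ∑ i : Idx m ⊕ Idx m, sgn i *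
      ind ((2 : ℝ) ^ k0 * (pos (m + 1) n i : ℕ)) ((2 : ℝ) ^ k0 * ((pos (m + 1) n i : ℕ) + 1)) x := by
  have hδ : (0 : ℝ) < 2 ^ k0 := by positivity
  have h0 := ind_dec hδ x m (2 * n)
  have h1 := ind_dec hδ x m (2 * n + 1)
  rw [Fintype.sum_sum_type]
  simp only [sgn, Sum.elim_inl, Sum.elim_inr, one_mul, neg_mul, Finset.sum_neg_distrib]
  have e : (2 : ℝ) ^ (k0 + (m + 1 : ℕ)) = 2 ^ k0 * 2 ^ m * 2 := by
    rw [zpow_add₀ (by norm_num), zpow_natCast, pow_succ]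
    ring
  change ind _ _ x - ind _ _ x = _
  rw [e, sub_eq_add_neg]
  congr 1
  · refine Eq.trans ?_ h0
    congr 1 <;> (push_cast; ring)
  · congr 1
    refine Eq.trans ?_ h1
    congr 1 <;> (push_cast; ring)

theorem haar_out (k : ℤ) (n : ℕ) (x : ℝ) (hx : x ∉ dyad k n) : haar k n x = 0 := by
  have hδ : (0 : ℝ) < 2 ^ k := by positivity
  unfold haar
  unfold dyad at hx
  rw [indicator_of_notMem, indicator_of_notMem, sub_zero]
  · intro h
    exact hx ⟨by nlinarith [h.1], h.2⟩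
  · intro h
    exact hx ⟨h.1, by nlinarith [h.2]⟩

theorem shift {E : Type} [MeasurableSpace E] [AddGroup E] [MeasurableAdd E] (μ : Measure E)
    [μ.IsAddRightInvariant] (f : E → ℝ) {A Q : Set E} (hA : MeasurableSet A)
    (hQ : MeasurableSet Q) (c : E) (h : ∀ u, u + c ∈ A ↔ u ∈ Q) :
    ∫ x in A, f x ∂μ = ∫ u in Q, f (u + c) ∂μ := by
  rw [← integral_indicator hA, ← integral_indicator hQ, ← integral_add_right_eq_self _ c]
  congr 1
  ext u
  by_cases hu : u ∈ Q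
  · rw [indicator_of_mem hu, indicator_of_mem ((h u).2 hu)]
  · rw [indicator_of_notMem hu, indicator_of_notMem (fun h' => hu ((h u).1 h'))]

theorem inv2 : (volume : Measure (ℝ × ℝ)).IsAddRightInvariant := by
  rw [Measure.volume_eq_prod]
  infer_instance

theorem inv3 : (volume : Measure (ℝ × ℝ × ℝ)).IsAddRightInvariant := by
  have := inv2
  rw [Measure.volume_eq_prod]
  infer_instance

theorem int_sum3 {E κ : Type} [MeasurableSpace E] (μ : Measure E) [Fintype κ]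
    (f : κ → κ → κ → E → ℝ) (hf : ∀ j k i, Integrable (f j k i) μ) :
    ∫ x, ∑ j, ∑ k, ∑ i, f j k i x ∂μ = ∑ j, ∑ k, ∑ i, ∫ x, f j k i x ∂μ := by
  rw [integral_finsetSum _ fun j _ => integrable_finsetSum _ fun k _ =>
      integrable_finsetSum _ fun i _ => hf j k i]
  refine Finset.sum_congr rfl fun j _ => ?_
  rw [integral_finsetSum _ fun k _ => integrable_finsetSum _ fun i _ => hf j k i]
  refine Finset.sum_congr rfl fun k _ => ?_
  rw [integral_finsetSum _ fun i _ => hf j k i]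

theorem mem_cell_shift (δ : ℝ) (a : ℕ) (u : ℝ) : u + δ * a ∈ cell δ a ↔ u ∈ Ico 0 δ := by
  unfold cell
  simp only [mem_Ico]
  constructor
  · rintro ⟨h1, h2⟩
    constructor <;> linarith
  · rintro ⟨h1, h2⟩
    constructor <;> linarith

/-- the basic cube -/
def cube (δ : ℝ) : Set (ℝ × ℝ × ℝ) := Ico 0 δ ×ˢ Ico 0 δ ×ˢ Ico 0 δ

theorem meas_cube (δ : ℝ) : MeasurableSet (cube δ) :=
  measurableSet_Ico.prod (measurableSet_Ico.prod measurableSet_Ico)

theorem vol_box (a b c d e f : ℝ) :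
    volume (Ico a b ×ˢ Ico c d ×ˢ Ico e f : Set (ℝ × ℝ × ℝ)) ≠ ⊤ := by
  rw [Measure.volume_eq_prod, Measure.prod_prod, Measure.volume_eq_prod, Measure.prod_prod]
  exact ENNReal.mul_ne_top (by simp) (ENNReal.mul_ne_top (by simp) (by simp))

instance (δ : ℝ) : IsFiniteMeasure (volume.restrict (cube δ)) :=
  isFiniteMeasure_restrict.2 (vol_box _ _ _ _ _ _)

theorem cell_int (f : ℝ × ℝ × ℝ → ℝ) (hf : Measurable f) (B : ℝ) (hB : ∀ x, |f x| ≤ B)
    (δ : ℝ) (a b c : ℕ) :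
    Integrable (fun x : ℝ × ℝ × ℝ => f x * (ind (δ * a) (δ * (a + 1)) x.1 *
      ind (δ * b) (δ * (b + 1)) x.2.1 * ind (δ * c) (δ * (c + 1)) x.2.2)) ∧
    ∫ x : ℝ × ℝ × ℝ, f x * (ind (δ * a) (δ * (a + 1)) x.1 *
      ind (δ * b) (δ * (b + 1)) x.2.1 * ind (δ * c) (δ * (c + 1)) x.2.2)
      = ∫ u in cube δ, f (u + (δ * a, δ * b, δ * c)) := by
  have hA : MeasurableSet (cell δ a ×ˢ cell δ b ×ˢ cell δ c) :=
    measurableSet_Ico.prod (measurableSet_Ico.prod measurableSet_Ico)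
  have e : (fun x : ℝ × ℝ × ℝ => f x * (ind (δ * a) (δ * (a + 1)) x.1 *
      ind (δ * b) (δ * (b + 1)) x.2.1 * ind (δ * c) (δ * (c + 1)) x.2.2))
      = (cell δ a ×ˢ cell δ b ×ˢ cell δ c).indicator f := by
    ext x
    unfold ind cell
    simp only [indicator, mem_prod]
    by_cases h1 : x.1 ∈ Ico (δ * a) (δ * (a + 1)) <;>
      by_cases h2 : x.2.1 ∈ Ico (δ * b) (δ * (b + 1)) <;>
      by_cases h3 : x.2.2 ∈ Ico (δ * c) (δ * (c + 1)) <;> simp only [h1, h2, h3] <;> simp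
  rw [e]
  constructor
  · rw [integrable_indicator_iff hA]
    exact Measure.integrableOn_of_bounded (vol_box _ _ _ _ _ _) hf.aestronglyMeasurable
      (M := B) (Filter.Eventually.of_forall hB)
  · rw [integral_indicator hA]
    have := inv3
    refine shift volume f hA (meas_cube δ) _ fun u => ?_
    unfold cube
    simp only [mem_prod, Prod.fst_add, Prod.snd_add, mem_cell_shift]

/-- samples of a function along a shifted lattice -/
def samp (F : ℝ × ℝ → ℝ) (δ u v : ℝ) (a b : ℕ) : ℝ := F (u + δ * a, v + δ * b)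

/-- the product of the three functions -/
def tri (F0 F1 F2 : ℝ × ℝ → ℝ) (x : ℝ × ℝ × ℝ) : ℝ :=
  F0 (x.1, x.2.1) * F1 (x.2.1, x.2.2) * F2 (x.2.2, x.1)

theorem tri_meas {F0 F1 F2 : ℝ × ℝ → ℝ} (h0 : Measurable F0) (h1 : Measurable F1)
    (h2 : Measurable F2) : Measurable (tri F0 F1 F2) := by
  unfold tri
  fun_prop

theorem tri_bd {F0 F1 F2 : ℝ × ℝ → ℝ} {B : ℝ} (h0 : ∀ x, |F0 x| ≤ B) (h1 : ∀ x, |F1 x| ≤ B)
    (h2 : ∀ x, |F2 x| ≤ B) (x : ℝ × ℝ × ℝ) : |tri F0 F1 F2 x| ≤ B * B * B := by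
  unfold tri
  have hB : 0 ≤ B := (abs_nonneg _).trans (h0 0)
  rw [abs_mul, abs_mul]
  exact mul_le_mul (mul_le_mul (h0 _) (h1 _) (abs_nonneg _) hB) (h2 _) (abs_nonneg _)
    (mul_nonneg hB hB)

/-- the discrete term as a function of the shift -/
noncomputable def TT (F0 F1 F2 : ℝ × ℝ → ℝ) (δ : ℝ) (m n0 n1 : ℕ) (u : ℝ × ℝ × ℝ) : ℝ :=
  T (samp F0 δ u.1 u.2.1) (samp F1 δ u.2.1 u.2.2) (samp F2 δ u.2.2 u.1) m n0 n1

theorem TT_eq (F0 F1 F2 : ℝ × ℝ → ℝ) (δ : ℝ) (m n0 n1 : ℕ) :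
    TT F0 F1 F2 δ m n0 n1 = fun u => ∑ j : Idx m ⊕ Idx m, ∑ k : Idx m ⊕ Idx m,
      ∑ i : Idx m ⊕ Idx m, sgn i * sgn j * sgn k * tri F0 F1 F2
        (u + (δ * (pos (m + 1) n0 i : ℕ), δ * (pos (m + 1) n1 j : ℕ),
          δ * (pos (m + 1) (n0 ^^^ n1) k : ℕ))) := by
  ext u
  unfold TT
  rw [T_eq]
  rfl

section main
variable {F0 F1 F2 : ℝ × ℝ → ℝ} (h0 : Measurable F0) (h1 : Measurable F1) (h2 : Measurable F2)
  {B : ℝ} (b0 : ∀ x, |F0 x| ≤ B) (b1 : ∀ x, |F1 x| ≤ B) (b2 : ∀ x, |F2 x| ≤ B)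
include h0 h1 h2 b0 b1 b2

theorem tri_int (δ : ℝ) (c : ℝ × ℝ × ℝ) :
    Integrable (fun u => tri F0 F1 F2 (u + c)) (volume.restrict (cube δ)) :=
  Integrable.of_bound ((tri_meas h0 h1 h2).comp (measurable_add_const c)).aestronglyMeasurable
    (B * B * B) (Filter.Eventually.of_forall fun _ => tri_bd b0 b1 b2 _)

theorem TT_int (δ : ℝ) (m n0 n1 : ℕ) :
    Integrable (TT F0 F1 F2 δ m n0 n1) (volume.restrict (cube δ)) := by
  rw [TT_eq]
  exact integrable_finsetSum _ fun j _ => integrable_finsetSum _ fun k _ =>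
    integrable_finsetSum _ fun i _ => (tri_int h0 h1 h2 b0 b1 b2 δ _).const_mul _

theorem loc_eq (k0 : ℤ) (m n0 n1 : ℕ) :
    locForm F0 F1 F2 (k0 + (m + 1 : ℕ)) (n0, n1, n0 ^^^ n1)
      = (2 : ℝ) ^ (-(k0 + (m + 1 : ℕ))) * ∫ u in cube (2 ^ k0), TT F0 F1 F2 (2 ^ k0) m n0 n1 u := by
  unfold locForm
  congr 1
  rw [setIntegral_eq_integral_of_forall_compl_eq_zero]
  swap
  · intro x hx
    simp only [mem_prod, not_and_or] at hx
    rcases hx with hx | hx | hx <;> (dsimp only; rw [haar_out _ _ _ hx]; ring)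
  have hc := cell_int (tri F0 F1 F2) (tri_meas h0 h1 h2) _ (tri_bd b0 b1 b2) (2 ^ k0)
  have e : ∀ x : ℝ × ℝ × ℝ, F0 (x.1, x.2.1) * F1 (x.2.1, x.2.2) * F2 (x.2.2, x.1) *
      (haar (k0 + (m + 1 : ℕ)) n0 x.1 * haar (k0 + (m + 1 : ℕ)) n1 x.2.1 *
        haar (k0 + (m + 1 : ℕ)) (n0 ^^^ n1) x.2.2)
      = ∑ j : Idx m ⊕ Idx m, ∑ k : Idx m ⊕ Idx m, ∑ i : Idx m ⊕ Idx m,
        sgn i * sgn j * sgn k * (tri F0 F1 F2 x *
          (ind (2 ^ k0 * (pos (m + 1) n0 i : ℕ)) (2 ^ k0 * ((pos (m + 1) n0 i : ℕ) + 1)) x.1 *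
          ind (2 ^ k0 * (pos (m + 1) n1 j : ℕ)) (2 ^ k0 * ((pos (m + 1) n1 j : ℕ) + 1)) x.2.1 *
          ind (2 ^ k0 * (pos (m + 1) (n0 ^^^ n1) k : ℕ))
            (2 ^ k0 * ((pos (m + 1) (n0 ^^^ n1) k : ℕ) + 1)) x.2.2)) := by
    intro x
    rw [haar_dec, haar_dec, haar_dec, mul_assoc (∑ i : Idx m ⊕ Idx m, _), mul_comm
      (∑ i : Idx m ⊕ Idx m, _), Finset.sum_mul_sum, Finset.sum_mul, Finset.mul_sum]
    refine Finset.sum_congr rfl fun j _ => ?_
    rw [Finset.sum_mul, Finset.mul_sum]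
    refine Finset.sum_congr rfl fun k _ => ?_
    rw [Finset.mul_sum, Finset.mul_sum]
    refine Finset.sum_congr rfl fun i _ => ?_
    unfold tri
    ring
  simp only [e]
  rw [TT_eq]
  have hi := tri_int h0 h1 h2 b0 b1 b2 (2 ^ k0)
  refine (int_sum3 _ _ fun j k i => (hc _ _ _).1.const_mul _).trans
    (Eq.trans ?_ (int_sum3 _ _ fun j k i => (hi _).const_mul _).symm)
  refine Finset.sum_congr rfl fun j _ => Finset.sum_congr rfl fun k _ =>
    Finset.sum_congr rfl fun i _ => ?_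
  rw [integral_const_mul, integral_const_mul, (hc _ _ _).2]

end main

end Vale.Agent.P075
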