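import Vale.Agent.P075.Cont

/-! The uniform bound with a sum of cubes on the right. -/

namespace Vale.Agent.P075

open MeasureTheory Set

/-- cyclic permutation of coordinates -/
def cyc : ℝ × ℝ × ℝ ≃ᵐ ℝ × ℝ × ℝ :=
  (MeasurableEquiv.prodComm).trans MeasurableEquiv.prodAssoc

theorem cyc_pres (μ : Measure ℝ) [SFinite μ] :
    MeasurePreserving cyc (μ.prod (μ.prod μ)) (μ.prod (μ.prod μ)) :=
  (measurePreserving_prodAssoc μ μ μ).comp Measure.measurePreserving_swap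

theorem cube_prod (δ : ℝ) : volume.restrict (cube δ) = (volume.restrict (Ico (0 : ℝ) δ)).prod
    ((volume.restrict (Ico (0 : ℝ) δ)).prod (volume.restrict (Ico (0 : ℝ) δ))) := by
  rw [Measure.prod_restrict, Measure.prod_restrict]
  rfl

theorem cube_int {δ : ℝ} (hδ : 0 < δ) (g : ℝ × ℝ → ℝ) :
    ∫ u in cube δ, g (u.2.1, u.2.2) = δ * ∫ v in Ico (0 : ℝ) δ ×ˢ Ico (0 : ℝ) δ, g v ∧
    ∫ u in cube δ, g (u.2.2, u.1) = δ * ∫ v in Ico (0 : ℝ) δ ×ˢ Ico (0 : ℝ) δ, g v ∧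
    ∫ u in cube δ, g (u.1, u.2.1) = δ * ∫ v in Ico (0 : ℝ) δ ×ˢ Ico (0 : ℝ) δ, g v := by
  have h1 : ∫ u in cube δ, g (u.2.1, u.2.2)
      = δ * ∫ v in Ico (0 : ℝ) δ ×ˢ Ico (0 : ℝ) δ, g v := by
    rw [cube_prod]
    refine (integral_fun_snd g).trans ?_
    rw [Measure.prod_restrict, smul_eq_mul]
    congr 1
    simp [hδ.le]
  have hc := cyc_pres (volume.restrict (Ico (0 : ℝ) δ))
  rw [← cube_prod] at hc
  have h2 : ∫ u in cube δ, g (u.2.2, u.1) = ∫ u in cube δ, g (u.2.1, u.2.2) :=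
    hc.integral_comp' (fun u => g (u.2.1, u.2.2))
  have h3 : ∫ u in cube δ, g (u.1, u.2.1) = ∫ u in cube δ, g (u.2.2, u.1) :=
    hc.integral_comp' (fun u => g (u.2.2, u.1))
  exact ⟨h1, h2.trans h1, h3.trans (h2.trans h1)⟩

theorem sum_ind {δ : ℝ} (hδ : 0 < δ) (x : ℝ) (K : ℕ) :
    ∑ a ∈ Finset.range K, ind (δ * a) (δ * (a + 1)) x = ind 0 (δ * K) x := by
  induction K with
  | zero => simp [ind]
  | succ K ih =>
    rw [Finset.sum_range_succ, ih, ind_add (a := 0) (b := δ * K) (c := δ * ((K + 1 : ℕ) : ℝ))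
      (by positivity) (by push_cast; nlinarith)]
    push_cast
    rfl

theorem cells_le {δ : ℝ} (hδ : 0 < δ) (g : ℝ × ℝ → ℝ) (hg : Integrable g) (hg0 : ∀ x, 0 ≤ g x)
    (K : ℕ) : ∑ a ∈ Finset.range K, ∑ b ∈ Finset.range K,
      ∫ v in Ico (0 : ℝ) δ ×ˢ Ico (0 : ℝ) δ, g (v + (δ * a, δ * b))
      ≤ ∫ x in Ici (0 : ℝ) ×ˢ Ici (0 : ℝ), g x := by
  have hA : ∀ a b : ℕ, MeasurableSet (cell δ a ×ˢ cell δ b) := fun a b =>
    measurableSet_Ico.prod measurableSet_Ico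
  have e : ∀ a b : ℕ, (cell δ a ×ˢ cell δ b).indicator g = fun x : ℝ × ℝ =>
      g x * (ind (δ * a) (δ * (a + 1)) x.1 * ind (δ * b) (δ * (b + 1)) x.2) := by
    intro a b
    ext x
    unfold ind cell
    simp only [indicator, mem_prod]
    by_cases h1 : x.1 ∈ Ico (δ * a) (δ * (a + 1)) <;>
      by_cases h2 : x.2 ∈ Ico (δ * b) (δ * (b + 1)) <;> simp only [h1, h2] <;> simp
  have e2 : ∀ a b : ℕ, ∫ v in Ico (0 : ℝ) δ ×ˢ Ico (0 : ℝ) δ, g (v + (δ * a, δ * b))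
      = ∫ x, (cell δ a ×ˢ cell δ b).indicator g x := by
    intro a b
    rw [integral_indicator (hA a b)]
    have := inv2
    refine (shift volume g (hA a b) (measurableSet_Ico.prod measurableSet_Ico) _ fun u => ?_).symm
    simp only [mem_prod, Prod.fst_add, Prod.snd_add, mem_cell_shift]
  simp only [e2]
  have hi : ∀ a b : ℕ, Integrable ((cell δ a ×ˢ cell δ b).indicator g) := fun a b =>
    hg.indicator (hA a b)
  have hQ : MeasurableSet (Ici (0 : ℝ) ×ˢ Ici (0 : ℝ)) := measurableSet_Ici.prod measurableSet_Ici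
  rw [← integral_indicator hQ]
  simp only [← integral_finsetSum _ fun b _ => hi _ b]
  rw [← integral_finsetSum _ fun a _ => integrable_finsetSum _ fun b _ => hi a b]
  refine integral_mono (integrable_finsetSum _ fun a _ => integrable_finsetSum _ fun b _ => hi a b)
    (hg.indicator hQ) fun x => ?_
  simp only [e, ← Finset.mul_sum, ← Finset.sum_mul, sum_ind hδ]
  unfold ind
  simp only [indicator, mem_prod, mem_Ico, mem_Ici]
  have := hg0 x
  by_cases h1 : 0 ≤ x.1 <;> by_cases h2 : 0 ≤ x.2 <;> by_cases h3 : x.1 < δ * K <;>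
    by_cases h4 : x.2 < δ * K <;> simp [h1, h2, h3, h4, this]

/-- parametrisation of admissible triples -/
def admEquiv : ℕ × ℕ ≃ Adm where
  toFun p := ⟨(p.1, p.2, p.1 ^^^ p.2), by simp⟩
  invFun n := (n.1.1, n.1.2.1)
  left_inv _ := rfl
  right_inv n := by
    obtain ⟨⟨a, b, c⟩, h⟩ := n
    have : a ^^^ b = c := Nat.xor_eq_zero_iff.1 h
    subst this
    rfl

theorem loc_zero {F0 : ℝ × ℝ → ℝ} (F1 F2 : ℝ × ℝ → ℝ) {R : ℝ}
    (hR : ∀ x : ℝ × ℝ, R ≤ x.1 ∨ R ≤ x.2 → F0 x = 0) (k : ℤ) (K : ℕ) (hK : R ≤ 2 ^ k * K)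
    (n : ℕ × ℕ × ℕ) (hn : K ≤ n.1 ∨ K ≤ n.2.1) : locForm F0 F1 F2 k n = 0 := by
  unfold locForm
  have hk : (0 : ℝ) < 2 ^ k := by positivity
  rw [setIntegral_eq_zero_of_forall_eq_zero, mul_zero]
  intro x hx
  rw [hR, zero_mul, zero_mul, zero_mul]
  rcases hn with hn | hn
  · left
    have h1 : (K : ℝ) ≤ n.1 := by exact_mod_cast hn
    have h2 := hx.1.1
    nlinarith
  · right
    have h1 : (K : ℝ) ≤ n.2.1 := by exact_mod_cast hn
    have h2 := hx.2.1.1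
    nlinarith

theorem tsum_adm {F0 : ℝ × ℝ → ℝ} (F1 F2 : ℝ × ℝ → ℝ) {R : ℝ}
    (hR : ∀ x : ℝ × ℝ, R ≤ x.1 ∨ R ≤ x.2 → F0 x = 0) (k : ℤ) (K : ℕ) (hK : R ≤ 2 ^ k * K) :
    ∑' n : Adm, locForm F0 F1 F2 k n.1 = ∑ n0 ∈ Finset.range K, ∑ n1 ∈ Finset.range K,
      locForm F0 F1 F2 k (n0, n1, n0 ^^^ n1) := by
  rw [← admEquiv.tsum_eq, tsum_eq_sum (s := Finset.range K ×ˢ Finset.range K),
    Finset.sum_product]
  · rfl
  · intro p hp
    refine loc_zero F1 F2 hR k K hK _ ?_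
    simp only [Finset.mem_product, Finset.mem_range, not_and_or, not_lt] at hp
    exact hp

theorem fin_adm {F0 : ℝ × ℝ → ℝ} (F1 F2 : ℝ × ℝ → ℝ) {R : ℝ}
    (hR : ∀ x : ℝ × ℝ, R ≤ x.1 ∨ R ≤ x.2 → F0 x = 0) (k : ℤ) :
    (Function.support fun n : Adm => locForm F0 F1 F2 k n.1).Finite := by
  have hk : (0 : ℝ) < 2 ^ k := by positivity
  obtain ⟨K, hK⟩ := exists_nat_ge (R / 2 ^ k)
  rw [div_le_iff₀ hk, mul_comm] at hK
  refine ((Finset.range K ×ˢ Finset.range K).finite_toSet.image admEquiv).subset fun n hn => ?_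
  refine ⟨admEquiv.symm n, ?_, admEquiv.apply_symm_apply n⟩
  by_contra hp
  refine hn (loc_zero F1 F2 hR k K hK _ ?_)
  simp only [Finset.coe_product, mem_prod, Finset.coe_range, mem_Iio, not_and_or, not_lt] at hp
  exact hp

theorem cube_pow_int {F : ℝ × ℝ → ℝ} (h : Measurable F) {B : ℝ} (b : ∀ x, |F x| ≤ B)
    (δ : ℝ) (φ : ℝ × ℝ × ℝ → ℝ × ℝ) (hφ : Measurable φ) :
    Integrable (fun u => |F (φ u)| ^ 3) (volume.restrict (cube δ)) := by
  refine Integrable.of_bound (Measurable.aestronglyMeasurable (by fun_prop)) (B ^ 3)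
    (Filter.Eventually.of_forall fun u => ?_)
  rw [Real.norm_eq_abs, abs_pow, abs_abs]
  exact pow_le_pow_left₀ (abs_nonneg _) (b _) 3

theorem core {F0 F1 F2 : ℝ × ℝ → ℝ} (h0 : Measurable F0) (h1 : Measurable F1)
    (h2 : Measurable F2) {B : ℝ} (b0 : ∀ x, |F0 x| ≤ B) (b1 : ∀ x, |F1 x| ≤ B)
    (b2 : ∀ x, |F2 x| ≤ B) {R : ℝ} (hR : ∀ x : ℝ × ℝ, R ≤ x.1 ∨ R ≤ x.2 → F0 x = 0)
    (i0 : Integrable fun x => |F0 x| ^ 3) (i1 : Integrable fun x => |F1 x| ^ 3)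
    (i2 : Integrable fun x => |F2 x| ^ 3) (S : Finset ℤ) (ε : ℤ → ℝ) (hε : ∀ k ∈ S, |ε k| ≤ 1) :
    |dyadForm S ε F0 F1 F2| ≤ 48 * ((∫ x in Ici (0 : ℝ) ×ˢ Ici (0 : ℝ), |F0 x| ^ 3)
      + (∫ x in Ici (0 : ℝ) ×ˢ Ici (0 : ℝ), |F1 x| ^ 3)
      + ∫ x in Ici (0 : ℝ) ×ˢ Ici (0 : ℝ), |F2 x| ^ 3) := by
  obtain ⟨lo, hlo⟩ := S.bddBelow
  obtain ⟨hi, hhi⟩ := S.bddAbove
  set k0 : ℤ := lo - 1 with hk0
  set δ : ℝ := 2 ^ k0 with hδdef
  have hδ : 0 < δ := by positivity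
  obtain ⟨N1, hN1⟩ := pow_unbounded_of_one_lt (R / δ) (show (1 : ℝ) < 2 by norm_num)
  set N : ℕ := max N1 (hi - k0).toNat with hN
  have hRN : R ≤ δ * 2 ^ N := by
    rw [div_lt_iff₀ hδ] at hN1
    have : (2 : ℝ) ^ N1 ≤ 2 ^ N := pow_le_pow_right₀ (by norm_num) (le_max_left _ _)
    nlinarith
  -- reduction to consecutive scales
  have s1 : |dyadForm S ε F0 F1 F2| ≤
      ∑ m ∈ Finset.range N, |∑' n : Adm, locForm F0 F1 F2 (k0 + (m + 1 : ℕ)) n.1| := by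
    unfold dyadForm
    refine (Finset.abs_sum_le_sum_abs _ _).trans ?_
    have a1 : ∑ k ∈ S, |ε k * ∑' n : Adm, locForm F0 F1 F2 k n.1|
        ≤ ∑ k ∈ S, |∑' n : Adm, locForm F0 F1 F2 k n.1| := by
      refine Finset.sum_le_sum fun k hk => ?_
      rw [abs_mul]
      exact mul_le_of_le_one_left (abs_nonneg _) (hε k hk)
    refine a1.trans ?_
    rw [← Finset.sum_image (s := Finset.range N) (g := fun m : ℕ => k0 + (m + 1 : ℕ))
      (f := fun k => |∑' n : Adm, locForm F0 F1 F2 k n.1|)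
      (by intro a _ b _ h; simpa using h)]
    refine Finset.sum_le_sum_of_subset_of_nonneg (fun k hk => ?_) fun _ _ _ => abs_nonneg _
    have a2 := hlo hk
    have a3 := hhi hk
    refine Finset.mem_image.2 ⟨(k - k0 - 1).toNat, Finset.mem_range.2 ?_, ?_⟩
    · have := le_max_right N1 (hi - k0).toNat
      omega
    · push_cast
      omega
  have hT := TT_int h0 h1 h2 b0 b1 b2 δ
  have s2 : ∀ m ∈ Finset.range N, |∑' n : Adm, locForm F0 F1 F2 (k0 + (m + 1 : ℕ)) n.1|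
      ≤ δ⁻¹ * ∫ u in cube δ, (1 / 2 : ℝ) ^ (m + 1) * ∑ n0 ∈ Finset.range (2 ^ (N - (m + 1))),
        ∑ n1 ∈ Finset.range (2 ^ (N - (m + 1))), |TT F0 F1 F2 δ m n0 n1 u| := by
    intro m hm
    have hm' := Finset.mem_range.1 hm
    have e : (2 : ℝ) ^ (k0 + (m + 1 : ℕ)) = δ * 2 ^ (m + 1) := by
      rw [zpow_add₀ (by norm_num), zpow_natCast]
    rw [tsum_adm F1 F2 hR _ (2 ^ (N - (m + 1))) (by
      rw [e]
      push_cast
      rw [mul_assoc, ← pow_add, show m + 1 + (N - (m + 1)) = N by omega]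
      exact hRN)]
    rw [integral_const_mul, integral_finsetSum _ fun n0 _ =>
      integrable_finsetSum _ fun n1 _ => (hT m n0 n1).abs, ← mul_assoc, Finset.mul_sum]
    refine (Finset.abs_sum_le_sum_abs _ _).trans (Finset.sum_le_sum fun n0 _ => ?_)
    rw [integral_finsetSum _ fun n1 _ => (hT m n0 n1).abs, Finset.mul_sum]
    refine (Finset.abs_sum_le_sum_abs _ _).trans (Finset.sum_le_sum fun n1 _ => ?_)
    rw [loc_eq h0 h1 h2 b0 b1 b2, abs_mul, zpow_neg, e, abs_of_pos (by positivity), mul_inv,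
      one_div, inv_pow]
    exact mul_le_mul_of_nonneg_left abs_integral_le_integral_abs (by positivity)
  have hTs : ∀ m : ℕ, Integrable (fun u => (1 / 2 : ℝ) ^ (m + 1) *
      ∑ n0 ∈ Finset.range (2 ^ (N - (m + 1))),
        ∑ n1 ∈ Finset.range (2 ^ (N - (m + 1))), |TT F0 F1 F2 δ m n0 n1 u|)
      (volume.restrict (cube δ)) := fun m =>
    (integrable_finsetSum _ fun n0 _ =>
      integrable_finsetSum _ fun n1 _ => (hT m n0 n1).abs).const_mul _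
  have c0 := fun a b : ℕ => cube_pow_int h0 b0 δ
    (fun u => (u.1, u.2.1) + (δ * a, δ * b)) (by fun_prop)
  have c1 := fun a b : ℕ => cube_pow_int h1 b1 δ
    (fun u => (u.2.1, u.2.2) + (δ * a, δ * b)) (by fun_prop)
  have c2 := fun a b : ℕ => cube_pow_int h2 b2 δ
    (fun u => (u.2.2, u.1) + (δ * a, δ * b)) (by fun_prop)
  have c01 : ∀ a b : ℕ, Integrable (fun u : ℝ × ℝ × ℝ =>
      |F0 ((u.1, u.2.1) + (δ * a, δ * b))| ^ 3 + |F1 ((u.2.1, u.2.2) + (δ * a, δ * b))| ^ 3)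
      (volume.restrict (cube δ)) := fun a b => (c0 a b).add (c1 a b)
  have c012 : ∀ a b : ℕ, Integrable (fun u : ℝ × ℝ × ℝ =>
      |F0 ((u.1, u.2.1) + (δ * a, δ * b))| ^ 3 + |F1 ((u.2.1, u.2.2) + (δ * a, δ * b))| ^ 3
        + |F2 ((u.2.2, u.1) + (δ * a, δ * b))| ^ 3)
      (volume.restrict (cube δ)) := fun a b => (c01 a b).add (c2 a b)
  have s3 : ∑ m ∈ Finset.range N, ∫ u in cube δ, (1 / 2 : ℝ) ^ (m + 1) *
      ∑ n0 ∈ Finset.range (2 ^ (N - (m + 1))),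
        ∑ n1 ∈ Finset.range (2 ^ (N - (m + 1))), |TT F0 F1 F2 δ m n0 n1 u|
      ≤ ∫ u in cube δ, 48 * ∑ a ∈ Finset.range (2 ^ N), ∑ b ∈ Finset.range (2 ^ N),
        (|F0 ((u.1, u.2.1) + (δ * a, δ * b))| ^ 3 + |F1 ((u.2.1, u.2.2) + (δ * a, δ * b))| ^ 3
          + |F2 ((u.2.2, u.1) + (δ * a, δ * b))| ^ 3) := by
    rw [← integral_finsetSum _ fun m _ => hTs m]
    refine integral_mono (integrable_finsetSum _ fun m _ => hTs m)
      ((integrable_finsetSum _ fun a _ => integrable_finsetSum _ fun b _ =>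
        c012 a b).const_mul _) fun u => ?_
    exact discrete (samp F0 δ u.1 u.2.1) (samp F1 δ u.2.1 u.2.2) (samp F2 δ u.2.2 u.1) N
  have s4 : ∫ u in cube δ, 48 * ∑ a ∈ Finset.range (2 ^ N), ∑ b ∈ Finset.range (2 ^ N),
        (|F0 ((u.1, u.2.1) + (δ * a, δ * b))| ^ 3 + |F1 ((u.2.1, u.2.2) + (δ * a, δ * b))| ^ 3
          + |F2 ((u.2.2, u.1) + (δ * a, δ * b))| ^ 3)
      = 48 * δ * ((∑ a ∈ Finset.range (2 ^ N), ∑ b ∈ Finset.range (2 ^ N),
          ∫ v in Ico (0 : ℝ) δ ×ˢ Ico (0 : ℝ) δ, |F0 (v + (δ * a, δ * b))| ^ 3)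
        + (∑ a ∈ Finset.range (2 ^ N), ∑ b ∈ Finset.range (2 ^ N),
          ∫ v in Ico (0 : ℝ) δ ×ˢ Ico (0 : ℝ) δ, |F1 (v + (δ * a, δ * b))| ^ 3)
        + ∑ a ∈ Finset.range (2 ^ N), ∑ b ∈ Finset.range (2 ^ N),
          ∫ v in Ico (0 : ℝ) δ ×ˢ Ico (0 : ℝ) δ, |F2 (v + (δ * a, δ * b))| ^ 3) := by
    rw [integral_const_mul, integral_finsetSum _ fun a _ => integrable_finsetSum _ fun b _ =>
      c012 a b, mul_assoc, ← Finset.sum_add_distrib,
      ← Finset.sum_add_distrib, Finset.mul_sum _ _ δ]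
    congr 1
    refine Finset.sum_congr rfl fun a _ => ?_
    rw [integral_finsetSum _ fun b _ => c012 a b,
      ← Finset.sum_add_distrib, ← Finset.sum_add_distrib, Finset.mul_sum]
    refine Finset.sum_congr rfl fun b _ => ?_
    rw [integral_add (c01 a b) (c2 a b), integral_add (c0 a b) (c1 a b),
      (cube_int hδ fun v => |F0 (v + (δ * a, δ * b))| ^ 3).2.2,
      (cube_int hδ fun v => |F1 (v + (δ * a, δ * b))| ^ 3).1,
      (cube_int hδ fun v => |F2 (v + (δ * a, δ * b))| ^ 3).2.1]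
    ring
  have d0 := cells_le hδ _ i0 (fun x => by positivity) (2 ^ N)
  have d1 := cells_le hδ _ i1 (fun x => by positivity) (2 ^ N)
  have d2 := cells_le hδ _ i2 (fun x => by positivity) (2 ^ N)
  refine s1.trans ((Finset.sum_le_sum s2).trans ?_)
  rw [← Finset.mul_sum]
  refine (mul_le_mul_of_nonneg_left (s3.trans s4.le) (inv_nonneg.2 hδ.le)).trans ?_
  rw [← mul_assoc, show δ⁻¹ * (48 * δ) = 48 by field_simp]
  linarith

end Vale.Agent.P075
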