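import Vale.Agent.P075.Core

/-! Scaling and passage to Lebesgue measurable functions. -/

namespace Vale.Agent.P075

open MeasureTheory Set

theorem loc_smul (F0 F1 F2 : ℝ × ℝ → ℝ) (a b c : ℝ) (k : ℤ) (n : ℕ × ℕ × ℕ) :
    locForm (fun x => a * F0 x) (fun x => b * F1 x) (fun x => c * F2 x) k n
      = a * b * c * locForm F0 F1 F2 k n := by
  unfold locForm
  rw [mul_left_comm, ← integral_const_mul (a * b * c)]
  congr 2
  ext x
  ring

theorem form_smul (S : Finset ℤ) (ε : ℤ → ℝ) (F0 F1 F2 : ℝ × ℝ → ℝ) (a b c : ℝ) :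
    dyadForm S ε (fun x => a * F0 x) (fun x => b * F1 x) (fun x => c * F2 x)
      = a * b * c * dyadForm S ε F0 F1 F2 := by
  unfold dyadForm
  simp only [loc_smul, tsum_mul_left]
  rw [Finset.mul_sum]
  exact Finset.sum_congr rfl fun k _ => by ring

theorem norm3_nonneg (F : ℝ × ℝ → ℝ) : 0 ≤ norm3 F :=
  Real.rpow_nonneg (integral_nonneg fun x => by positivity) _

theorem norm3_pow (F : ℝ × ℝ → ℝ) :
    norm3 F ^ 3 = ∫ x in Ici (0 : ℝ) ×ˢ Ici (0 : ℝ), |F x| ^ 3 := by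
  unfold norm3
  rw [← Real.rpow_natCast, ← Real.rpow_mul (integral_nonneg fun x => by positivity)]
  norm_num

theorem scaled_le (F : ℝ × ℝ → ℝ) {η : ℝ} (hη : 0 < η) :
    ∫ x in Ici (0 : ℝ) ×ˢ Ici (0 : ℝ), |(norm3 F + η)⁻¹ * F x| ^ 3 ≤ 1 := by
  have h0 := norm3_nonneg F
  have ht : 0 < norm3 F + η := by linarith
  simp only [abs_mul, mul_pow]
  rw [integral_const_mul, ← norm3_pow, abs_of_pos (inv_pos.2 ht), ← mul_pow]
  refine pow_le_one₀ (by positivity) ?_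
  rw [inv_mul_le_iff₀ ht]
  linarith

theorem borel_case {F0 F1 F2 : ℝ × ℝ → ℝ} (h0 : Measurable F0) (h1 : Measurable F1)
    (h2 : Measurable F2) {B : ℝ} (b0 : ∀ x, |F0 x| ≤ B) (b1 : ∀ x, |F1 x| ≤ B)
    (b2 : ∀ x, |F2 x| ≤ B) {R : ℝ} (hR : ∀ x : ℝ × ℝ, R ≤ x.1 ∨ R ≤ x.2 → F0 x = 0)
    (i0 : Integrable fun x => |F0 x| ^ 3) (i1 : Integrable fun x => |F1 x| ^ 3)
    (i2 : Integrable fun x => |F2 x| ^ 3) (S : Finset ℤ) (ε : ℤ → ℝ) (hε : ∀ k ∈ S, |ε k| ≤ 1) :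
    |dyadForm S ε F0 F1 F2| ≤ 144 * (norm3 F0 * norm3 F1 * norm3 F2) := by
  have key : ∀ η : ℝ, 0 < η →
      |dyadForm S ε F0 F1 F2| ≤ 144 * ((norm3 F0 + η) * (norm3 F1 + η) * (norm3 F2 + η)) := by
    intro η hη
    have hB : 0 ≤ B := (abs_nonneg _).trans (b0 0)
    have bd : ∀ F : ℝ × ℝ → ℝ, (∀ x, |F x| ≤ B) → ∀ x, |(norm3 F + η)⁻¹ * F x| ≤ η⁻¹ * B := by
      intro F hF x
      have := norm3_nonneg F
      rw [abs_mul, abs_of_pos (inv_pos.2 (by linarith))]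
      exact mul_le_mul (inv_anti₀ hη (by linarith)) (hF x) (abs_nonneg _) (by positivity)
    have it : ∀ F : ℝ × ℝ → ℝ, (Integrable fun x => |F x| ^ 3) →
        Integrable fun x => |(norm3 F + η)⁻¹ * F x| ^ 3 := by
      intro F hF
      simp only [abs_mul, mul_pow]
      exact hF.const_mul _
    have h := core (h0.const_mul (norm3 F0 + η)⁻¹) (h1.const_mul (norm3 F1 + η)⁻¹)
      (h2.const_mul (norm3 F2 + η)⁻¹) (bd F0 b0) (bd F1 b1) (bd F2 b2) (R := R)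
      (fun x hx => by simp only [hR x hx, mul_zero]) (it F0 i0) (it F1 i1) (it F2 i2) S ε hε
    rw [form_smul] at h
    have a0 := scaled_le F0 hη
    have a1 := scaled_le F1 hη
    have a2 := scaled_le F2 hη
    have t0 : 0 < norm3 F0 + η := by linarith [norm3_nonneg F0]
    have t1 : 0 < norm3 F1 + η := by linarith [norm3_nonneg F1]
    have t2 : 0 < norm3 F2 + η := by linarith [norm3_nonneg F2]
    rw [abs_mul, ← mul_inv, ← mul_inv, abs_of_pos (by positivity),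
      inv_mul_le_iff₀ (by positivity)] at h
    refine h.trans ?_
    rw [mul_comm (144 : ℝ)]
    exact mul_le_mul_of_nonneg_left (by linarith) (by positivity)
  have hc : Continuous fun η : ℝ =>
      144 * ((norm3 F0 + η) * (norm3 F1 + η) * (norm3 F2 + η)) := by fun_prop
  have lim := (hc.tendsto 0).mono_left (nhdsWithin_le_nhds (s := Ioi 0))
  simp only [add_zero] at lim
  refine ge_of_tendsto lim ?_
  filter_upwards [self_mem_nhdsWithin] with η hη using key η hη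

theorem Nice.radius {F : ℝ × ℝ → ℝ} (h : Nice F) : ∃ R : ℝ, ∀ x, R ≤ ‖x‖ → F x = 0 := by
  obtain ⟨R, hR⟩ := h.2.2.isCompact.isBounded.subset_ball 0
  refine ⟨R, fun x hx => ?_⟩
  by_contra hne
  have := hR (subset_tsupport F hne)
  rw [mem_ball_zero_iff] at this
  linarith

theorem radius_coord {F : ℝ × ℝ → ℝ} {R : ℝ} (h : ∀ x, R ≤ ‖x‖ → F x = 0) (x : ℝ × ℝ)
    (hx : R ≤ x.1 ∨ R ≤ x.2) : F x = 0 := by
  apply h
  rcases hx with hx | hx
  · exact hx.trans ((le_abs_self _).trans (norm_fst_le x))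
  · exact hx.trans ((le_abs_self _).trans (norm_snd_le x))

theorem Nice.modify {F : ℝ × ℝ → ℝ} (h : Nice F) : ∃ (F' : ℝ × ℝ → ℝ) (B R : ℝ),
    Measurable F' ∧ F =ᵐ[volume] F' ∧ (∀ x, |F' x| ≤ B) ∧ (∀ x, R ≤ ‖x‖ → F' x = 0) ∧
      Integrable fun x => |F' x| ^ 3 := by
  obtain ⟨R, hR⟩ := h.radius
  obtain ⟨hm, ⟨B, hB⟩, -⟩ := h
  have hB0 : 0 ≤ B := (abs_nonneg _).trans (hB 0)
  have hmk := hm.measurable_mk
  have hs : MeasurableSet {x : ℝ × ℝ | ‖x‖ < R ∧ |hm.mk F x| ≤ B} :=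
    (measurableSet_lt measurable_norm measurable_const).inter
      (measurableSet_le hmk.abs measurable_const)
  have m' : Measurable ({x : ℝ × ℝ | ‖x‖ < R ∧ |hm.mk F x| ≤ B}.indicator (hm.mk F)) :=
    hmk.indicator hs
  have bd : ∀ x, |{x : ℝ × ℝ | ‖x‖ < R ∧ |hm.mk F x| ≤ B}.indicator (hm.mk F) x| ≤ B := by
    intro x
    by_cases hx : x ∈ {x : ℝ × ℝ | ‖x‖ < R ∧ |hm.mk F x| ≤ B}
    · rw [indicator_of_mem hx]
      exact hx.2
    · rw [indicator_of_notMem hx, abs_zero]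
      exact hB0
  have va : ∀ x, R ≤ ‖x‖ →
      {x : ℝ × ℝ | ‖x‖ < R ∧ |hm.mk F x| ≤ B}.indicator (hm.mk F) x = 0 := fun x hx =>
    indicator_of_notMem (fun h => absurd h.1 (not_lt.2 hx)) _
  refine ⟨_, B, R, m', ?_, bd, va, ?_⟩
  · filter_upwards [hm.ae_eq_mk] with x hx
    by_cases h1 : ‖x‖ < R
    · rw [indicator_of_mem, hx]
      exact ⟨h1, hx ▸ hB x⟩
    · rw [va x (not_lt.1 h1), hR x (not_lt.1 h1)]
  · rw [← integrableOn_iff_integrable_of_support_subset (s := Metric.ball 0 R)]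
    · refine Measure.integrableOn_of_bounded measure_ball_lt_top.ne
        (Measurable.aestronglyMeasurable (by fun_prop)) (M := B ^ 3)
        (Filter.Eventually.of_forall fun x => ?_)
      rw [Real.norm_eq_abs, abs_pow, abs_abs]
      exact pow_le_pow_left₀ (abs_nonneg _) (bd _) 3
    · intro x hx
      rw [mem_ball_zero_iff]
      by_contra h1
      apply hx
      simp only [va x (not_lt.1 h1)]
      simp

theorem loc_congr {F0 F1 F2 G0 G1 G2 : ℝ × ℝ → ℝ} (e0 : F0 =ᵐ[volume] G0)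
    (e1 : F1 =ᵐ[volume] G1) (e2 : F2 =ᵐ[volume] G2) (k : ℤ) (n : ℕ × ℕ × ℕ) :
    locForm F0 F1 F2 k n = locForm G0 G1 G2 k n := by
  have q1 : Measure.QuasiMeasurePreserving (Prod.snd : ℝ × ℝ × ℝ → ℝ × ℝ) volume volume :=
    Measure.quasiMeasurePreserving_snd
  have hc : Measure.QuasiMeasurePreserving (cyc : ℝ × ℝ × ℝ → ℝ × ℝ × ℝ) volume volume :=
    (cyc_pres volume).quasiMeasurePreserving
  have a1 := q1.ae_eq_comp e1
  have a2 := (q1.comp hc).ae_eq_comp e2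
  have a0 := ((q1.comp hc).comp hc).ae_eq_comp e0
  unfold locForm
  congr 1
  refine integral_congr_ae (ae_restrict_of_ae ?_)
  filter_upwards [a0, a1, a2] with x x0 x1 x2
  have y0 : F0 (x.1, x.2.1) = G0 (x.1, x.2.1) := x0
  have y1 : F1 (x.2.1, x.2.2) = G1 (x.2.1, x.2.2) := x1
  have y2 : F2 (x.2.2, x.1) = G2 (x.2.2, x.1) := x2
  rw [y0, y1, y2]

theorem norm3_congr {F G : ℝ × ℝ → ℝ} (e : F =ᵐ[volume] G) : norm3 F = norm3 G := by
  unfold norm3
  congr 1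
  refine integral_congr_ae (ae_restrict_of_ae ?_)
  filter_upwards [e] with x hx
  rw [hx]

theorem main {F0 F1 F2 : ℝ × ℝ → ℝ} (h0 : Nice F0) (h1 : Nice F1) (h2 : Nice F2)
    (S : Finset ℤ) (ε : ℤ → ℝ) (hε : ∀ k ∈ S, |ε k| ≤ 1) :
    |dyadForm S ε F0 F1 F2| ≤ 144 * (norm3 F0 * norm3 F1 * norm3 F2) := by
  obtain ⟨G0, B0, R0, m0, e0, b0, r0, i0⟩ := h0.modify
  obtain ⟨G1, B1, R1, m1, e1, b1, -, i1⟩ := h1.modify
  obtain ⟨G2, B2, R2, m2, e2, b2, -, i2⟩ := h2.modify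
  have e : dyadForm S ε F0 F1 F2 = dyadForm S ε G0 G1 G2 := by
    unfold dyadForm
    simp only [loc_congr e0 e1 e2]
  rw [e, norm3_congr e0, norm3_congr e1, norm3_congr e2]
  exact borel_case m0 m1 m2 (B := max B0 (max B1 B2)) (fun x => (b0 x).trans (le_max_left _ _))
    (fun x => (b1 x).trans ((le_max_left _ _).trans (le_max_right _ _)))
    (fun x => (b2 x).trans ((le_max_right _ _).trans (le_max_right _ _)))
    (radius_coord r0) i0 i1 i2 S ε hε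

theorem main_fin {F0 : ℝ × ℝ → ℝ} (h0 : Nice F0) (F1 F2 : ℝ × ℝ → ℝ) (k : ℤ) :
    (Function.support fun n : Adm => locForm F0 F1 F2 k n.1).Finite := by
  obtain ⟨R, hR⟩ := h0.radius
  exact fin_adm F1 F2 (radius_coord hR) k

end Vale.Agent.P075
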