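import Vale.Agent.P075.Mat

/-! The lower bound for the defect `G` and the trilinear estimate. -/

namespace Vale.Agent.P075

open Matrix

variable {ι κ : Type} [Fintype ι] [DecidableEq ι] [Fintype κ] [DecidableEq κ]

theorem rt_eig {Q : Matrix ι ι ℝ} (hQ : Psd Q) {b : ℝ} (hb : 0 < b) {z : ι → ℝ}
    (hz : Q *ᵥ z = b ^ 2 • z) : rt Q *ᵥ z = b • z := by
  set w := rt Q *ᵥ z - b • z with hw
  have e : rt Q *ᵥ w = -(b • w) := by
    rw [hw, mulVec_sub, mulVec_mulVec, rt_mul hQ, hz, mulVec_smul, smul_sub, smul_smul]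
    rw [neg_sub, sq]
  have h1 := (rt_psd hQ).2 w
  rw [e, dotProduct_neg, dotProduct_smul, smul_eq_mul] at h1
  have h2 : 0 ≤ w ⬝ᵥ w := Finset.sum_nonneg fun i _ => mul_self_nonneg _
  have h3 : w ⬝ᵥ w = 0 := by nlinarith
  have h4 : w = 0 := dotProduct_self_eq_zero.1 h3
  exact sub_eq_zero.1 h4

theorem vec_gain {P Q : Matrix ι ι ℝ} (hP : Psd P) (hQ : Psd Q) {b : ℝ} (hb : 0 < b)
    (hle : Psd (b ^ 2 • (1 : Matrix ι ι ℝ) - P)) {z : ι → ℝ} (hz : Q *ᵥ z = b ^ 2 • z) :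
    z ⬝ᵥ P *ᵥ z ≤ 3 * b * (z ⬝ᵥ (rt (P + Q) - rt Q) *ᵥ z) := by
  have hT := rt_psd hQ
  have hS := rt_psd (hP.add hQ)
  have hTz := rt_eig hQ hb hz
  have hTT := rt_mul hQ
  have hSS := rt_mul (hP.add hQ)
  set T := rt Q
  set S := rt (P + Q)
  have hD : Psd (S - T) := mono hS hT (by rw [hSS, hTT, add_sub_cancel_right]; exact hP)
  have hD2 : Psd (T + b • (1 : Matrix ι ι ℝ) - S) := by
    apply mono (hT.add (Psd.one.smul hb.le)) hS
    have : (T + b • (1 : Matrix ι ι ℝ)) * (T + b • (1 : Matrix ι ι ℝ)) - S * S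
        = (2 * b) • T + (b ^ 2 • (1 : Matrix ι ι ℝ) - P) := by
      rw [hSS, Matrix.add_mul, Matrix.mul_add, Matrix.mul_add, hTT]
      simp only [Matrix.mul_smul, Matrix.smul_mul, Matrix.mul_one, Matrix.one_mul, smul_smul]
      rw [two_mul, add_smul, sq]
      abel
    rw [this]
    exact (hT.smul (by linarith)).add hle
  obtain ⟨D, hDdef⟩ : ∃ D, D = S - T := ⟨_, rfl⟩
  have hSD : S = T + D := by rw [hDdef]; abel
  rw [← hDdef] at hD ⊢
  have hD3 : Psd (b • (1 : Matrix ι ι ℝ) - D) := by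
    have : T + b • (1 : Matrix ι ι ℝ) - S = b • (1 : Matrix ι ι ℝ) - D := by
      rw [hSD]; abel
    rwa [this] at hD2
  obtain ⟨E, hE, hEE⟩ := exists_sqrt hD
  have h4 := (hD3.conj E).2 z
  have e4 : E * (b • (1 : Matrix ι ι ℝ) - D) * Eᵀ = b • D - D * D := by
    rw [hE.1, ← hEE]
    simp only [Matrix.mul_sub, Matrix.sub_mul, Matrix.mul_smul, Matrix.smul_mul, Matrix.mul_one,
      Matrix.mul_assoc]
  rw [e4, sub_mulVec, dotProduct_sub, smul_mulVec, dotProduct_smul, smul_eq_mul] at h4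
  have e5 : P = T * D + D * T + D * D := by
    have : P = S * S - T * T := by rw [hSS, hTT]; abel
    rw [this, hSD, Matrix.add_mul, Matrix.mul_add, Matrix.mul_add]
    abel
  have e6 : z ⬝ᵥ (T * D) *ᵥ z = b * (z ⬝ᵥ D *ᵥ z) := by
    rw [← mulVec_mulVec, symm_dot hT.1, hTz, smul_dotProduct, smul_eq_mul]
  have e7 : z ⬝ᵥ (D * T) *ᵥ z = b * (z ⬝ᵥ D *ᵥ z) := by
    rw [← mulVec_mulVec, hTz, mulVec_smul, dotProduct_smul, smul_eq_mul]
  rw [e5, add_mulVec, add_mulVec, dotProduct_add, dotProduct_add, e6, e7]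
  linarith

/-- the quadratic gain -/
noncomputable def Gam (α β : κ → ℝ) (p : Matrix κ κ ℝ) : ℝ :=
  ∑ j, |β j| * ∑ i, (if |α i| ≤ |β j| then α i * p i j else 0) ^ 2

omit [DecidableEq ι] in
theorem trace_frame (Z : Matrix ι κ ℝ) (d : κ → ℝ) (M : Matrix ι ι ℝ) :
    trace (Z * diagonal d * Zᵀ * M) = ∑ j, d j * ((fun k => Z k j) ⬝ᵥ M *ᵥ (fun k => Z k j)) := by
  rw [Matrix.mul_assoc, Matrix.mul_assoc, trace_mul_comm, Matrix.mul_assoc]
  unfold trace
  refine Finset.sum_congr rfl fun j _ => ?_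
  rw [diag_apply, diagonal_mul, Matrix.mul_assoc, Matrix.mul_apply]
  rfl

theorem gain {P Q : Matrix ι ι ℝ} {Y Z : Matrix ι κ ℝ} {α β : κ → ℝ} (hY : Y * Yᵀ = 1)
    (hPY : Psd (P - Y * diagonal (fun i => α i ^ 2) * Yᵀ))
    (hZ : Z * diagonal (fun j => β j ^ 2) * Zᵀ * Z = Z * diagonal (fun j => β j ^ 2))
    (hQZ : Psd (Q - Z * diagonal (fun j => β j ^ 2) * Zᵀ)) :
    Gam α β (Yᵀ * Z) ≤ 3 * G P Q := by
  have hP : Psd P := by
    have := hPY.add ((Psd.diag (d := fun i => α i ^ 2) fun i => sq_nonneg _).conj Y)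
    rwa [sub_add_cancel] at this
  have hQ' : Psd (Z * diagonal (fun j => β j ^ 2) * Zᵀ) :=
    (Psd.diag (d := fun i => β i ^ 2) fun i => sq_nonneg _).conj Z
  have h1 := G_mono hP hQ' hQZ
  have tf := trace_frame Z (fun j => β j ^ 2)
  set Q' := Z * diagonal (fun j => β j ^ 2) * Zᵀ with hQdef
  have h2 : trace (Q' * (rt (P + Q') - rt Q')) ≤ G P Q' := by
    have := trace_mul_nonneg hP (rt_mono (hP.add hQ') hP
      (by rw [add_sub_cancel_left]; exact hQ'))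
    unfold G F
    rw [Matrix.mul_sub, trace_sub] at this ⊢
    rw [Matrix.add_mul, trace_add]
    linarith
  rw [tf] at h2
  have h3 : Gam α β (Yᵀ * Z) ≤
      3 * ∑ j, β j ^ 2 * ((fun k => Z k j) ⬝ᵥ (rt (P + Q') - rt Q') *ᵥ (fun k => Z k j)) := by
    rw [Finset.mul_sum]
    refine Finset.sum_le_sum fun j _ => ?_
    rcases eq_or_ne (β j) 0 with hb | hb
    · simp [hb]
    have hb' : 0 < |β j| := abs_pos.2 hb
    set z : ι → ℝ := fun k => Z k j with hzdef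
    have hz : Q' *ᵥ z = |β j| ^ 2 • z := by
      ext k
      have := congrFun (congrFun hZ k) j
      rw [mul_diagonal, Matrix.mul_apply] at this
      simp only [mulVec, dotProduct, Pi.smul_apply, smul_eq_mul, hzdef, sq_abs]
      rw [this, mul_comm]
    let d : κ → ℝ := fun i => if |α i| ≤ |β j| then α i ^ 2 else 0
    have hPj : Psd (Y * diagonal d * Yᵀ) := by
      refine (Psd.diag fun i => ?_).conj Y
      simp only [d]
      split_ifs
      · exact sq_nonneg _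
      · exact le_rfl
    have hle : Psd (|β j| ^ 2 • (1 : Matrix ι ι ℝ) - Y * diagonal d * Yᵀ) := by
      have e : |β j| ^ 2 • (1 : Matrix ι ι ℝ) - Y * diagonal d * Yᵀ
          = Y * diagonal (fun i => |β j| ^ 2 - d i) * Yᵀ := by
        rw [← diagonal_sub, Matrix.mul_sub, Matrix.sub_mul, ← hY]
        congr 1
        rw [← smul_one_eq_diagonal, Matrix.mul_smul, Matrix.smul_mul, Matrix.mul_one]
      rw [e]
      refine (Psd.diag fun i => ?_).conj Y
      simp only [d]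
      split_ifs with h
      · rw [← sq_abs (α i)]
        have := abs_nonneg (α i)
        nlinarith
      · simp only [sub_zero]
        positivity
    have hle2 : Psd (P - Y * diagonal d * Yᵀ) := by
      have e : P - Y * diagonal d * Yᵀ = (P - Y * diagonal (fun i => α i ^ 2) * Yᵀ)
          + Y * diagonal (fun i => α i ^ 2 - d i) * Yᵀ := by
        rw [← diagonal_sub, Matrix.mul_sub, Matrix.sub_mul]
        abel
      rw [e]
      refine hPY.add ((Psd.diag fun i => ?_).conj Y)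
      simp only [d]
      split_ifs with h
      · simp
      · simp only [sub_zero]
        positivity
    have a1 := vec_gain hPj hQ' hb' hle hz
    have a2 := (rt_mono (hP.add hQ') (hPj.add hQ')
      (by rw [add_sub_add_right_eq_sub]; exact hle2)).2 z
    rw [sub_mulVec, dotProduct_sub] at a1 a2 ⊢
    have e : z ⬝ᵥ (Y * diagonal d * Yᵀ) *ᵥ z
        = ∑ i, (if |α i| ≤ |β j| then α i * (Yᵀ * Z) i j else 0) ^ 2 := by
      rw [quad_conj]
      unfold dotProduct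
      refine Finset.sum_congr rfl fun i _ => ?_
      rw [mulVec_diagonal]
      have : (Yᵀ *ᵥ z) i = (Yᵀ * Z) i j := rfl
      rw [this]
      simp only [d]
      split_ifs
      · ring
      · ring
    rw [← e, ← sq_abs (β j)]
    nlinarith [mul_le_mul_of_nonneg_left a1 hb'.le, mul_nonneg (sq_nonneg |β j|) a2]
  linarith

theorem frame (A : Matrix ι ι ℝ) : ∃ (X Y : Matrix ι (ι ⊕ ι) ℝ) (α : ι ⊕ ι → ℝ),
    X * Xᵀ = 1 ∧ Y * Yᵀ = 1 ∧ A * Y = X * diagonal α ∧ Aᵀ * X = Y * diagonal α := by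
  obtain ⟨W, d, h1, -, h3⟩ := spec (fromBlocks 0 A Aᵀ 0) (by
    rw [fromBlocks_transpose, transpose_transpose, transpose_zero])
  rw [← fromRows_toRows W] at h1 h3
  rw [transpose_fromRows, fromRows_mul_fromCols, ← fromBlocks_one, fromBlocks_inj] at h1
  rw [fromBlocks_mul_fromRows, fromRows_mul, fromRows_ext_iff] at h3
  refine ⟨W.toRows₁, W.toRows₂, d, h1.1, h1.2.2.2, ?_, ?_⟩
  · simpa using h3.1
  · simpa using h3.2

omit [DecidableEq κ] in
theorem frame_norm {Y : Matrix ι κ ℝ} (hY : Y * Yᵀ = 1) (v : κ → ℝ) :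
    (Y *ᵥ v) ⬝ᵥ (Y *ᵥ v) ≤ v ⬝ᵥ v := by
  have h : 0 ≤ (v - Yᵀ *ᵥ (Y *ᵥ v)) ⬝ᵥ (v - Yᵀ *ᵥ (Y *ᵥ v)) :=
    Finset.sum_nonneg fun i _ => mul_self_nonneg _
  have e1 : ∀ w : ι → ℝ, v ⬝ᵥ Yᵀ *ᵥ w = (Y *ᵥ v) ⬝ᵥ w := by
    intro w
    rw [dotProduct_mulVec, vecMul_transpose]
  have e2 : (Yᵀ *ᵥ (Y *ᵥ v)) ⬝ᵥ (Yᵀ *ᵥ (Y *ᵥ v)) = (Y *ᵥ v) ⬝ᵥ (Y *ᵥ v) := by
    rw [dotProduct_mulVec, vecMul_transpose, mulVec_mulVec, hY, one_mulVec]
  rw [sub_dotProduct, dotProduct_sub, dotProduct_sub, e2,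
    dotProduct_comm (Yᵀ *ᵥ (Y *ᵥ v)) v, e1] at h
  linarith

omit [DecidableEq κ] in
theorem contraction {X Y : Matrix ι κ ℝ} (hX : X * Xᵀ = 1) (hY : Y * Yᵀ = 1) (v u : κ → ℝ) :
    |∑ k, ∑ i, v k * (Yᵀ * X) k i * u i| ≤ (∑ k, v k ^ 2 + ∑ i, u i ^ 2) / 2 := by
  have e : ∑ k, ∑ i, v k * (Yᵀ * X) k i * u i = (Y *ᵥ v) ⬝ᵥ (X *ᵥ u) := by
    have : (Y *ᵥ v) ⬝ᵥ (X *ᵥ u) = v ⬝ᵥ (Yᵀ * X) *ᵥ u := by
      rw [← mulVec_mulVec, dotProduct_mulVec v, vecMul_transpose]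
    rw [this]
    unfold dotProduct
    refine Finset.sum_congr rfl fun k _ => ?_
    unfold mulVec dotProduct
    rw [Finset.mul_sum]
    exact Finset.sum_congr rfl fun i _ => by ring
  have a1 := frame_norm hX u
  have a2 := frame_norm hY v
  have b1 : ∑ k, v k ^ 2 = v ⬝ᵥ v := Finset.sum_congr rfl fun k _ => sq _
  have b2 : ∑ k, u k ^ 2 = u ⬝ᵥ u := Finset.sum_congr rfl fun k _ => sq _
  have c1 : 0 ≤ (Y *ᵥ v - X *ᵥ u) ⬝ᵥ (Y *ᵥ v - X *ᵥ u) :=
    Finset.sum_nonneg fun i _ => mul_self_nonneg _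
  have c2 : 0 ≤ (Y *ᵥ v + X *ᵥ u) ⬝ᵥ (Y *ᵥ v + X *ᵥ u) :=
    Finset.sum_nonneg fun i _ => mul_self_nonneg _
  rw [sub_dotProduct, dotProduct_sub, dotProduct_sub, dotProduct_comm (X *ᵥ u) (Y *ᵥ v)] at c1
  rw [add_dotProduct, dotProduct_add, dotProduct_add, dotProduct_comm (X *ᵥ u) (Y *ᵥ v)] at c2
  rw [e, b1, b2, abs_le]
  constructor <;> linarith

omit [DecidableEq κ] in
theorem cls_bound (α β γ : κ → ℝ) (p q : Matrix κ κ ℝ) {X Y : Matrix ι κ ℝ}
    (hX : X * Xᵀ = 1) (hY : Y * Yᵀ = 1) (s t : κ → κ → Prop)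
    [∀ i j, Decidable (s i j)] [∀ i j, Decidable (t i j)]
    (hs : ∀ i j, s i j → |α i| ≤ |β j|) (ht : ∀ k j, t k j → |γ k| ≤ |β j|) :
    |∑ j, ∑ k, ∑ i, if s i j ∧ t k j then α i * β j * γ k * p i j * q j k * (Yᵀ * X) k i else 0|
      ≤ (Gam α β p + Gam γ β qᵀ) / 2 := by
  refine (Finset.abs_sum_le_sum_abs _ _).trans ?_
  unfold Gam
  rw [← Finset.sum_add_distrib, Finset.sum_div]
  refine Finset.sum_le_sum fun j _ => ?_
  have h := contraction hX hY (fun k => if t k j then γ k * q j k else 0)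
    (fun i => if s i j then α i * p i j else 0)
  have e : (∑ k, ∑ i, if s i j ∧ t k j then α i * β j * γ k * p i j * q j k * (Yᵀ * X) k i else 0)
      = β j * ∑ k, ∑ i, (if t k j then γ k * q j k else 0) * (Yᵀ * X) k i *
        (if s i j then α i * p i j else 0) := by
    rw [Finset.mul_sum]
    refine Finset.sum_congr rfl fun k _ => ?_
    rw [Finset.mul_sum]
    refine Finset.sum_congr rfl fun i _ => ?_
    by_cases h1 : s i j <;> by_cases h2 : t k j <;> simp [h1, h2]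
    ring
  have a1 : ∑ i, (if s i j then α i * p i j else 0) ^ 2
      ≤ ∑ i, (if |α i| ≤ |β j| then α i * p i j else 0) ^ 2 := by
    refine Finset.sum_le_sum fun i _ => ?_
    by_cases h1 : s i j
    · rw [if_pos h1, if_pos (hs i j h1)]
    · rw [if_neg h1]
      simp only [ne_eq, OfNat.ofNat_ne_zero, not_false_eq_true, zero_pow]
      positivity
  have a2 : ∑ k, (if t k j then γ k * q j k else 0) ^ 2
      ≤ ∑ k, (if |γ k| ≤ |β j| then γ k * qᵀ k j else 0) ^ 2 := by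
    refine Finset.sum_le_sum fun k _ => ?_
    by_cases h1 : t k j
    · rw [if_pos h1, if_pos (ht k j h1), transpose_apply]
    · rw [if_neg h1]
      simp only [ne_eq, OfNat.ofNat_ne_zero, not_false_eq_true, zero_pow]
      positivity
  rw [e, abs_mul]
  have hb := abs_nonneg (β j)
  nlinarith [mul_le_mul_of_nonneg_left h hb, mul_le_mul_of_nonneg_left a1 hb,
    mul_le_mul_of_nonneg_left a2 hb]

theorem trace_triple (α β γ : κ → ℝ) (p q r : Matrix κ κ ℝ) :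
    trace (diagonal α * p * diagonal β * q * diagonal γ * r)
      = ∑ j, ∑ k, ∑ i, α i * β j * γ k * p i j * q j k * r k i := by
  have e : ∀ i, (diagonal α * p * diagonal β * q * diagonal γ * r) i i
      = ∑ j, ∑ k, α i * β j * γ k * p i j * q j k * r k i := by
    intro i
    rw [Matrix.mul_apply, Finset.sum_comm]
    refine Finset.sum_congr rfl fun k _ => ?_
    rw [mul_diagonal, Matrix.mul_apply, Finset.sum_mul, Finset.sum_mul]
    refine Finset.sum_congr rfl fun j _ => ?_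
    rw [mul_diagonal, diagonal_mul]
    ring
  unfold trace
  simp only [diag_apply, e]
  rw [Finset.sum_comm]
  exact Finset.sum_congr rfl fun j _ => Finset.sum_comm

theorem frame_facts {A : Matrix ι ι ℝ} {X Y : Matrix ι κ ℝ} {α : κ → ℝ}
    (hX : X * Xᵀ = 1) (hY : Y * Yᵀ = 1) (h1 : A * Y = X * diagonal α)
    (h2 : Aᵀ * X = Y * diagonal α) :
    A = X * diagonal α * Yᵀ ∧ Aᵀ * A = Y * diagonal (fun i => α i ^ 2) * Yᵀ ∧
      A * Aᵀ = X * diagonal (fun i => α i ^ 2) * Xᵀ ∧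
      Aᵀ * A * Y = Y * diagonal (fun i => α i ^ 2) ∧
      A * Aᵀ * X = X * diagonal (fun i => α i ^ 2) := by
  have e : diagonal α * diagonal α = diagonal (fun i => α i ^ 2) := by
    rw [diagonal_mul_diagonal]
    congr 1
    ext i
    ring
  have a4 : Aᵀ * A * Y = Y * diagonal (fun i => α i ^ 2) := by
    rw [Matrix.mul_assoc, h1, ← Matrix.mul_assoc, h2, Matrix.mul_assoc, e]
  have a5 : A * Aᵀ * X = X * diagonal (fun i => α i ^ 2) := by
    rw [Matrix.mul_assoc, h2, ← Matrix.mul_assoc, h1, Matrix.mul_assoc, e]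
  refine ⟨?_, ?_, ?_, a4, a5⟩
  · rw [← h1, Matrix.mul_assoc, hY, Matrix.mul_one]
  · rw [← a4, Matrix.mul_assoc, hY, Matrix.mul_one]
  · rw [← a5, Matrix.mul_assoc, hX, Matrix.mul_one]

theorem vertex_gain {A B P Q : Matrix ι ι ℝ} {XA YA XB YB : Matrix ι κ ℝ} {α β : κ → ℝ}
    (hXA : XA * XAᵀ = 1) (hYA : YA * YAᵀ = 1) (a1 : A * YA = XA * diagonal α)
    (a2 : Aᵀ * XA = YA * diagonal α)
    (hXB : XB * XBᵀ = 1) (hYB : YB * YBᵀ = 1) (b1 : B * YB = XB * diagonal β)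
    (b2 : Bᵀ * XB = YB * diagonal β)
    (hP : Psd (P - Aᵀ * A)) (hQ : Psd (Q - B * Bᵀ)) :
    Gam α β (YAᵀ * XB) ≤ 3 * G P Q ∧ Gam β α (YAᵀ * XB)ᵀ ≤ 3 * G P Q := by
  obtain ⟨-, fa2, -, fa4, -⟩ := frame_facts hXA hYA a1 a2
  obtain ⟨-, -, fb3, -, fb5⟩ := frame_facts hXB hYB b1 b2
  constructor
  · exact gain hYA (fa2 ▸ hP) (by rw [← fb3, fb5]) (fb3 ▸ hQ)
  · rw [G_comm, transpose_mul, transpose_transpose]
    exact gain hXB (fb3 ▸ hQ) (by rw [← fa2, fa4]) (fa2 ▸ hP)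

theorem trilinear {A B C P0 Q0 P1 Q1 P2 Q2 : Matrix ι ι ℝ}
    (hP1 : Psd (P1 - Aᵀ * A)) (hQ1 : Psd (Q1 - B * Bᵀ))
    (hP2 : Psd (P2 - Bᵀ * B)) (hQ2 : Psd (Q2 - C * Cᵀ))
    (hP0 : Psd (P0 - Cᵀ * C)) (hQ0 : Psd (Q0 - A * Aᵀ)) :
    |trace (A * B * C)| ≤ 3 * (G P0 Q0 + G P1 Q1 + G P2 Q2) := by
  obtain ⟨XA, YA, α, hXA, hYA, a1, a2⟩ := frame A
  obtain ⟨XB, YB, β, hXB, hYB, b1, b2⟩ := frame B
  obtain ⟨XC, YC, γ, hXC, hYC, c1, c2⟩ := frame C
  obtain ⟨g1, g1'⟩ := vertex_gain hXA hYA a1 a2 hXB hYB b1 b2 hP1 hQ1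
  obtain ⟨g2, g2'⟩ := vertex_gain hXB hYB b1 b2 hXC hYC c1 c2 hP2 hQ2
  obtain ⟨g0, g0'⟩ := vertex_gain hXC hYC c1 c2 hXA hYA a1 a2 hP0 hQ0
  have fa := (frame_facts hXA hYA a1 a2).1
  have fb := (frame_facts hXB hYB b1 b2).1
  have fc := (frame_facts hXC hYC c1 c2).1
  have e : trace (A * B * C) = trace (diagonal α * (YAᵀ * XB) * diagonal β * (YBᵀ * XC) *
      diagonal γ * (YCᵀ * XA)) := by
    rw [fa, fb, fc]
    have : XA * diagonal α * YAᵀ * (XB * diagonal β * YBᵀ) * (XC * diagonal γ * YCᵀ)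
        = XA * (diagonal α * (YAᵀ * XB) * diagonal β * (YBᵀ * XC) * diagonal γ * YCᵀ) := by
      simp only [Matrix.mul_assoc]
    rw [this, trace_mul_comm]
    simp only [Matrix.mul_assoc]
  rw [trace_triple] at e
  have kB := cls_bound α β γ (YAᵀ * XB) (YBᵀ * XC) hXA hYC
    (fun i j => |α i| ≤ |β j|) (fun k j => |γ k| ≤ |β j|) (fun _ _ h => h) (fun _ _ h => h)
  have kC := cls_bound β γ α (YBᵀ * XC) (YCᵀ * XA) hXB hYA
    (fun j k => |β j| < |γ k|) (fun i k => |α i| ≤ |γ k|) (fun _ _ h => h.le) (fun _ _ h => h)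
  have kA := cls_bound γ α β (YCᵀ * XA) (YAᵀ * XB) hXC hYB
    (fun k i => |γ k| < |α i|) (fun j i => |β j| < |α i|) (fun _ _ h => h.le) (fun _ _ h => h.le)
  set p := YAᵀ * XB
  set q := YBᵀ * XC
  set r := YCᵀ * XA
  have rot : ∀ f : ι ⊕ ι → ι ⊕ ι → ι ⊕ ι → ℝ,
      ∑ k, ∑ i, ∑ j, f i j k = ∑ j, ∑ k, ∑ i, f i j k := by
    intro f
    rw [Finset.sum_comm (s := Finset.univ) (t := Finset.univ) (f := fun j k => ∑ i, f i j k)]
    exact Finset.sum_congr rfl fun k _ => Finset.sum_comm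
  rw [rot (fun i j k => if |β j| < |γ k| ∧ |α i| ≤ |γ k|
    then β j * γ k * α i * q j k * r k i * p i j else 0)] at kC
  rw [← rot (fun k i j => if |γ k| < |α i| ∧ |β j| < |α i|
    then γ k * α i * β j * r k i * p i j * q j k else 0)] at kA
  have split : ∑ j, ∑ k, ∑ i, α i * β j * γ k * p i j * q j k * r k i
      = (∑ j, ∑ k, ∑ i, if |α i| ≤ |β j| ∧ |γ k| ≤ |β j|
          then α i * β j * γ k * p i j * q j k * r k i else 0)
        + (∑ j, ∑ k, ∑ i, if |β j| < |γ k| ∧ |α i| ≤ |γ k|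
          then β j * γ k * α i * q j k * r k i * p i j else 0)
        + (∑ j, ∑ k, ∑ i, if |γ k| < |α i| ∧ |β j| < |α i|
          then γ k * α i * β j * r k i * p i j * q j k else 0) := by
    simp only [← Finset.sum_add_distrib]
    refine Finset.sum_congr rfl fun j _ => Finset.sum_congr rfl fun k _ =>
      Finset.sum_congr rfl fun i _ => ?_
    by_cases h1 : |α i| ≤ |β j| ∧ |γ k| ≤ |β j|
    · rw [if_pos h1, if_neg (fun h => by linarith [h.1, h1.2]),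
        if_neg (fun h => by linarith [h.2, h1.1])]
      ring
    · rw [if_neg h1]
      by_cases h2 : |β j| < |γ k| ∧ |α i| ≤ |γ k|
      · rw [if_pos h2, if_neg (fun h => by linarith [h.1, h2.2])]
        ring
      · rw [if_neg h2, if_pos]
        · ring
        · push Not at h1 h2
          constructor
          · by_contra hh
            push Not at hh
            rcases le_or_gt |γ k| |β j| with h3 | h3
            · linarith [h1 (by linarith)]
            · linarith [h2 h3]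
          · by_contra hh
            push Not at hh
            have := h1 hh
            linarith [h2 this]
  rw [e, split]
  refine (abs_add_three _ _ _).trans ?_
  linarith

end Vale.Agent.P075
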