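import Vale.Agent.P075.Gain

/-! The one-scale Bellman inequality and its telescoping over dyadic scales. -/

namespace Vale.Agent.P075

open Matrix

section loc
variable {ι : Type} [Fintype ι] [DecidableEq ι]

/-- embedding of a half -/
def emb (b : Bool) (i : ι) : ι ⊕ ι := cond b (Sum.inr i) (Sum.inl i)

/-- signs -/
def sgn : ι ⊕ ι → ℝ := Sum.elim (fun _ => 1) (fun _ => -1)

/-- a block -/
def blk (A : Matrix (ι ⊕ ι) (ι ⊕ ι) ℝ) (a b : Bool) : Matrix ι ι ℝ := A.submatrix (emb a) (emb b)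

/-- one vertex term -/
noncomputable def V (A B : Matrix ι ι ℝ) : ℝ := F (Aᵀ * A + B * Bᵀ)

theorem psdV (A B : Matrix ι ι ℝ) : Psd (Aᵀ * A + B * Bᵀ) :=
  (Psd.transpose_mul A).add (Psd.mul_transpose B)

/-- the Bellman function -/
noncomputable def U (A B C : Matrix ι ι ℝ) : ℝ := V A B + V B C + V C A

theorem U_nonneg (A B C : Matrix ι ι ℝ) : 0 ≤ U A B C :=
  add_nonneg (add_nonneg (F_nonneg (psdV _ _)) (F_nonneg (psdV _ _))) (F_nonneg (psdV _ _))

theorem sgn_sq : (diagonal sgn : Matrix (ι ⊕ ι) (ι ⊕ ι) ℝ) * diagonal sgn = 1 := by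
  rw [diagonal_mul_diagonal, ← diagonal_one]
  congr 1
  ext i
  rcases i with i | i <;> simp [sgn]

theorem vertex (A B : Matrix (ι ⊕ ι) (ι ⊕ ι) ℝ) :
    2 * V A B + G (Aᵀ * A + B * Bᵀ) (diagonal sgn * (Aᵀ * A + B * Bᵀ) * diagonal sgn) ≤
      4 * (V (blk A false false) (blk B false false) + V (blk A true false) (blk B false true)
        + V (blk A false true) (blk B true true) + V (blk A true true) (blk B true false)) := by
  have e : (Aᵀ * A + B * Bᵀ) + diagonal sgn * (Aᵀ * A + B * Bᵀ) * diagonal sgn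
      = fromBlocks ((2 : ℝ) • (((blk A false false)ᵀ * blk A false false
          + blk B false false * (blk B false false)ᵀ) + ((blk A true false)ᵀ * blk A true false
          + blk B false true * (blk B false true)ᵀ))) 0 0
        ((2 : ℝ) • (((blk A false true)ᵀ * blk A false true
          + blk B true true * (blk B true true)ᵀ) + ((blk A true true)ᵀ * blk A true true
          + blk B true false * (blk B true false)ᵀ))) := by
    ext i j
    rw [Matrix.add_apply, mul_diagonal, diagonal_mul]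
    rcases i with i | i <;> rcases j with j | j <;>
      simp [sgn, blk, emb, Matrix.mul_apply, Fintype.sum_sum_type] <;> ring
  have h1 := F_conj (psdV A B) (diagonal_transpose sgn) sgn_sq
  unfold G V
  rw [h1, e, F_blocks (((psdV _ _).add (psdV _ _)).smul (by norm_num))
    (((psdV _ _).add (psdV _ _)).smul (by norm_num))]
  have c1 := conv4 (psdV (blk A false false) (blk B false false))
    (psdV (blk A true false) (blk B false true))
  have c2 := conv4 (psdV (blk A false true) (blk B true true))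
    (psdV (blk A true true) (blk B true false))
  linarith

theorem local_step (A B C : Matrix (ι ⊕ ι) (ι ⊕ ι) ℝ) :
    |trace (diagonal sgn * A * (diagonal sgn * B) * (diagonal sgn * C))| ≤
      6 * (2 * (∑ a : Bool, ∑ b : Bool,
        U (blk A a b) (blk B b (xor a b)) (blk C (xor a b) a)) - U A B C) := by
  have hP : ∀ A B : Matrix (ι ⊕ ι) (ι ⊕ ι) ℝ,
      Psd (Aᵀ * A + B * Bᵀ - (diagonal sgn * A)ᵀ * (diagonal sgn * A)) := by
    intro A B
    have : (diagonal sgn * A)ᵀ * (diagonal sgn * A) = Aᵀ * A := by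
      rw [transpose_mul, diagonal_transpose, Matrix.mul_assoc, ← Matrix.mul_assoc _ _ A, sgn_sq,
        Matrix.one_mul]
    rw [this, add_sub_cancel_left]
    exact Psd.mul_transpose B
  have hQ : ∀ A B : Matrix (ι ⊕ ι) (ι ⊕ ι) ℝ,
      Psd (diagonal sgn * (Aᵀ * A + B * Bᵀ) * diagonal sgn
        - (diagonal sgn * B) * (diagonal sgn * B)ᵀ) := by
    intro A B
    have : diagonal sgn * (Aᵀ * A + B * Bᵀ) * diagonal sgn
        - (diagonal sgn * B) * (diagonal sgn * B)ᵀ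
        = diagonal sgn * (Aᵀ * A) * (diagonal sgn)ᵀ := by
      rw [transpose_mul, diagonal_transpose, Matrix.mul_add, Matrix.add_mul]
      simp only [Matrix.mul_assoc]
      abel
    rw [this]
    exact (Psd.transpose_mul A).conj _
  have h := trilinear (hP A B) (hQ A B) (hP B C) (hQ B C) (hP C A) (hQ C A)
  have v1 := vertex A B
  have v2 := vertex B C
  have v0 := vertex C A
  simp only [Fintype.sum_bool, U, Bool.xor_true, Bool.xor_false, Bool.not_true, Bool.not_false]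
  linarith

end loc

/-- index type of size `2^m` -/
def Idx : ℕ → Type
  | 0 => Unit
  | m + 1 => Idx m ⊕ Idx m

instance instFintypeIdx : (m : ℕ) → Fintype (Idx m)
  | 0 => inferInstanceAs (Fintype Unit)
  | m + 1 => @instFintypeSum _ _ (instFintypeIdx m) (instFintypeIdx m)

instance instDecEqIdx : (m : ℕ) → DecidableEq (Idx m)
  | 0 => inferInstanceAs (DecidableEq Unit)
  | m + 1 => @instDecidableEqSum _ _ (instDecEqIdx m) (instDecEqIdx m)

/-- position of an index in the `n`-th block of length `2^m` -/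
def pos : (m : ℕ) → ℕ → Idx m → ℕ
  | 0, n, _ => n
  | m + 1, n, i => Sum.elim (pos m (2 * n)) (pos m (2 * n + 1)) i

theorem pos_emb (m n : ℕ) (b : Bool) (i : Idx m) :
    pos (m + 1) n (emb b i) = pos m (Nat.bit b n) i := by
  cases b <;> rfl

/-- the sampled block -/
def M (a : ℕ → ℕ → ℝ) (m n0 n1 : ℕ) : Matrix (Idx m) (Idx m) ℝ :=
  Matrix.of fun i j => a (pos m n0 i) (pos m n1 j)

/-- the sampled block, seen on a sum type -/
def M' (a : ℕ → ℕ → ℝ) (m n0 n1 : ℕ) : Matrix (Idx m ⊕ Idx m) (Idx m ⊕ Idx m) ℝ :=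
  M a (m + 1) n0 n1

theorem blk_M (a : ℕ → ℕ → ℝ) (m n0 n1 : ℕ) (b0 b1 : Bool) :
    blk (M' a m n0 n1) b0 b1 = M a m (Nat.bit b0 n0) (Nat.bit b1 n1) := by
  ext i j
  change a (pos (m + 1) n0 (emb b0 i)) (pos (m + 1) n1 (emb b1 j)) = _
  rw [pos_emb, pos_emb]
  rfl

/-- the discrete trilinear term -/
noncomputable def T (a b c : ℕ → ℕ → ℝ) (m n0 n1 : ℕ) : ℝ :=
  trace (diagonal sgn * M' a m n0 n1 * (diagonal sgn * M' b m n1 (n0 ^^^ n1)) *
    (diagonal sgn * M' c m (n0 ^^^ n1) n0))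

/-- the Bellman function of a triple -/
noncomputable def UU (a b c : ℕ → ℕ → ℝ) (m n0 n1 : ℕ) : ℝ :=
  U (M a m n0 n1) (M b m n1 (n0 ^^^ n1)) (M c m (n0 ^^^ n1) n0)

theorem T_le (a b c : ℕ → ℕ → ℝ) (m n0 n1 : ℕ) :
    |T a b c m n0 n1| ≤ 6 * (2 * (∑ b0 : Bool, ∑ b1 : Bool,
      UU a b c m (Nat.bit b0 n0) (Nat.bit b1 n1)) - UU a b c (m + 1) n0 n1) := by
  have h := local_step (M' a m n0 n1) (M' b m n1 (n0 ^^^ n1)) (M' c m (n0 ^^^ n1) n0)
  simp only [blk_M] at h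
  have e : ∀ b0 b1 : Bool, Nat.bit b0 n0 ^^^ Nat.bit b1 n1 = Nat.bit (xor b0 b1) (n0 ^^^ n1) :=
    fun b0 b1 => Nat.xor_bit b0 n0 b1 n1
  unfold UU
  simp only [e]
  exact h

theorem sum_bit (f : ℕ → ℝ) (K : ℕ) :
    ∑ n ∈ Finset.range K, ∑ b : Bool, f (Nat.bit b n) = ∑ n ∈ Finset.range (2 * K), f n := by
  induction K with
  | zero => simp
  | succ K ih =>
    rw [Finset.sum_range_succ, ih, show 2 * (K + 1) = 2 * K + 1 + 1 by ring,
      Finset.sum_range_succ, Finset.sum_range_succ, Fintype.sum_bool]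
    simp only [Nat.bit_true, Nat.bit_false]
    ring

/-- total Bellman function at one scale -/
noncomputable def W (a b c : ℕ → ℕ → ℝ) (m K : ℕ) : ℝ :=
  ∑ n0 ∈ Finset.range K, ∑ n1 ∈ Finset.range K, UU a b c m n0 n1

theorem scale_step (a b c : ℕ → ℕ → ℝ) (m K : ℕ) :
    ∑ n0 ∈ Finset.range K, ∑ n1 ∈ Finset.range K, |T a b c m n0 n1|
      ≤ 6 * (2 * W a b c m (2 * K) - W a b c (m + 1) K) := by
  have e : W a b c m (2 * K) = ∑ n0 ∈ Finset.range K, ∑ n1 ∈ Finset.range K,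
      ∑ b0 : Bool, ∑ b1 : Bool, UU a b c m (Nat.bit b0 n0) (Nat.bit b1 n1) := by
    unfold W
    rw [← sum_bit (fun n0 => ∑ n1 ∈ Finset.range (2 * K), UU a b c m n0 n1)]
    refine Finset.sum_congr rfl fun n0 _ => ?_
    rw [Finset.sum_comm (s := Finset.range K)]
    refine Finset.sum_congr rfl fun b0 _ => ?_
    rw [← sum_bit (fun n1 => UU a b c m (Nat.bit b0 n0) n1)]
  rw [e]
  unfold W
  rw [Finset.mul_sum, ← Finset.sum_sub_distrib, Finset.mul_sum]
  refine Finset.sum_le_sum fun n0 _ => ?_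
  rw [Finset.mul_sum, ← Finset.sum_sub_distrib, Finset.mul_sum]
  exact Finset.sum_le_sum fun n1 _ => T_le a b c m n0 n1

theorem telescope (a b c : ℕ → ℕ → ℝ) (N : ℕ) :
    ∑ m ∈ Finset.range N, (1 / 2 : ℝ) ^ (m + 1) * ∑ n0 ∈ Finset.range (2 ^ (N - (m + 1))),
      ∑ n1 ∈ Finset.range (2 ^ (N - (m + 1))), |T a b c m n0 n1| ≤ 6 * W a b c 0 (2 ^ N) := by
  have key : ∀ j, j ≤ N → ∑ m ∈ Finset.range j, (1 / 2 : ℝ) ^ (m + 1) *
      ∑ n0 ∈ Finset.range (2 ^ (N - (m + 1))),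
      ∑ n1 ∈ Finset.range (2 ^ (N - (m + 1))), |T a b c m n0 n1|
      ≤ 6 * W a b c 0 (2 ^ N) - 6 * (1 / 2) ^ j * W a b c j (2 ^ (N - j)) := by
    intro j
    induction j with
    | zero => simp
    | succ j ih =>
      intro hj
      have h1 := ih (by omega)
      have h2 := scale_step a b c j (2 ^ (N - (j + 1)))
      have e : 2 * 2 ^ (N - (j + 1)) = 2 ^ (N - j) := by
        rw [show N - j = N - (j + 1) + 1 by omega, pow_succ]
        ring
      rw [e] at h2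
      rw [Finset.sum_range_succ]
      have h3 := mul_le_mul_of_nonneg_left h2 (show (0 : ℝ) ≤ (1 / 2) ^ (j + 1) by positivity)
      have e2 : (1 / 2 : ℝ) ^ (j + 1) * (6 * (2 * W a b c j (2 ^ (N - j))
          - W a b c (j + 1) (2 ^ (N - (j + 1)))))
          = 6 * (1 / 2) ^ j * W a b c j (2 ^ (N - j))
            - 6 * (1 / 2) ^ (j + 1) * W a b c (j + 1) (2 ^ (N - (j + 1))) := by ring
      linarith
  have h := key N le_rfl
  have h0 : 0 ≤ W a b c N (2 ^ (N - N)) :=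
    Finset.sum_nonneg fun _ _ => Finset.sum_nonneg fun _ _ => U_nonneg _ _ _
  have : 0 ≤ 6 * (1 / 2 : ℝ) ^ N * W a b c N (2 ^ (N - N)) := by positivity
  linarith

theorem V_unit (A B : Matrix (Idx 0) (Idx 0) ℝ) (i : Idx 0) :
    V A B ≤ 4 * (|A i i| ^ 3 + |B i i| ^ 3) := by
  have hu : ∀ j : Idx 0, j = i := fun j => rfl
  have hs : ∀ f : Idx 0 → ℝ, ∑ j, f j = f i := fun f =>
    Finset.sum_eq_single i (fun j _ h => absurd (hu j) h) (by simp)
  have hS := rt_psd (psdV A B)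
  have hSS := rt_mul (psdV A B)
  unfold V F
  set S := rt (Aᵀ * A + B * Bᵀ)
  have h0 : 0 ≤ S i i := by
    have := trace_nonneg hS
    unfold trace at this
    rwa [hs] at this
  have h1 : S i i * S i i = A i i ^ 2 + B i i ^ 2 := by
    have := congrFun (congrFun hSS i) i
    rw [Matrix.add_apply, Matrix.mul_apply, Matrix.mul_apply, Matrix.mul_apply, hs, hs, hs] at this
    rw [this, transpose_apply, transpose_apply]
    ring
  have h2 : trace ((Aᵀ * A + B * Bᵀ) * S) = S i i ^ 3 := by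
    rw [← hSS]
    unfold trace
    rw [hs, diag_apply, Matrix.mul_apply, hs, Matrix.mul_apply, hs]
    ring
  rw [h2]
  have hx := abs_nonneg (A i i)
  have hy := abs_nonneg (B i i)
  rw [← sq_abs (A i i), ← sq_abs (B i i)] at h1
  set x := |A i i|
  set y := |B i i|
  have h3 : S i i ≤ x + y := by
    apply le_of_sq_le_sq _ (by linarith)
    nlinarith [mul_nonneg hx hy]
  have h4 : S i i ^ 3 ≤ (x + y) ^ 3 := pow_le_pow_left₀ h0 h3 3
  nlinarith [mul_nonneg (add_nonneg hx hy) (sq_nonneg (x - y))]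

theorem W_zero (a b c : ℕ → ℕ → ℝ) (K : ℕ) :
    W a b c 0 K ≤ 8 * ∑ n0 ∈ Finset.range K, ∑ n1 ∈ Finset.range K,
      (|a n0 n1| ^ 3 + |b n1 (n0 ^^^ n1)| ^ 3 + |c (n0 ^^^ n1) n0| ^ 3) := by
  unfold W
  rw [Finset.mul_sum]
  refine Finset.sum_le_sum fun n0 _ => ?_
  rw [Finset.mul_sum]
  refine Finset.sum_le_sum fun n1 _ => ?_
  have h1 := V_unit (M a 0 n0 n1) (M b 0 n1 (n0 ^^^ n1)) ()
  have h2 := V_unit (M b 0 n1 (n0 ^^^ n1)) (M c 0 (n0 ^^^ n1) n0) ()
  have h3 := V_unit (M c 0 (n0 ^^^ n1) n0) (M a 0 n0 n1) ()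
  have e1 : M a 0 n0 n1 () () = a n0 n1 := rfl
  have e2 : M b 0 n1 (n0 ^^^ n1) () () = b n1 (n0 ^^^ n1) := rfl
  have e3 : M c 0 (n0 ^^^ n1) n0 () () = c (n0 ^^^ n1) n0 := rfl
  rw [e1, e2] at h1
  rw [e2, e3] at h2
  rw [e3, e1] at h3
  unfold UU U
  linarith

theorem sum_xor (f : ℕ → ℝ) (N n : ℕ) (hn : n < 2 ^ N) :
    ∑ k ∈ Finset.range (2 ^ N), f (k ^^^ n) = ∑ k ∈ Finset.range (2 ^ N), f k := by
  refine Finset.sum_bij' (fun k _ => k ^^^ n) (fun k _ => k ^^^ n) ?_ ?_ ?_ ?_ ?_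
  · intro k hk
    exact Finset.mem_range.2 (Nat.xor_lt_two_pow (Finset.mem_range.1 hk) hn)
  · intro k hk
    exact Finset.mem_range.2 (Nat.xor_lt_two_pow (Finset.mem_range.1 hk) hn)
  · intro k _
    simp
  · intro k _
    simp
  · intro k _
    rfl

theorem discrete (a b c : ℕ → ℕ → ℝ) (N : ℕ) :
    ∑ m ∈ Finset.range N, (1 / 2 : ℝ) ^ (m + 1) * ∑ n0 ∈ Finset.range (2 ^ (N - (m + 1))),
      ∑ n1 ∈ Finset.range (2 ^ (N - (m + 1))), |T a b c m n0 n1| ≤
      48 * ∑ n0 ∈ Finset.range (2 ^ N), ∑ n1 ∈ Finset.range (2 ^ N),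
        (|a n0 n1| ^ 3 + |b n0 n1| ^ 3 + |c n0 n1| ^ 3) := by
  have h1 := telescope a b c N
  have h2 := W_zero a b c (2 ^ N)
  have eb : ∑ n0 ∈ Finset.range (2 ^ N), ∑ n1 ∈ Finset.range (2 ^ N), |b n1 (n0 ^^^ n1)| ^ 3
      = ∑ n0 ∈ Finset.range (2 ^ N), ∑ n1 ∈ Finset.range (2 ^ N), |b n0 n1| ^ 3 := by
    rw [Finset.sum_comm]
    exact Finset.sum_congr rfl fun n1 h =>
      sum_xor (fun k => |b n1 k| ^ 3) N n1 (Finset.mem_range.1 h)
  have ec : ∑ n0 ∈ Finset.range (2 ^ N), ∑ n1 ∈ Finset.range (2 ^ N), |c (n0 ^^^ n1) n0| ^ 3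
      = ∑ n0 ∈ Finset.range (2 ^ N), ∑ n1 ∈ Finset.range (2 ^ N), |c n0 n1| ^ 3 := by
    rw [Finset.sum_comm (f := fun n0 n1 => |c n0 n1| ^ 3)]
    refine Finset.sum_congr rfl fun n0 h => ?_
    rw [← sum_xor (fun k => |c k n0| ^ 3) N n0 (Finset.mem_range.1 h)]
    exact Finset.sum_congr rfl fun n1 _ => by rw [Nat.xor_comm]
  simp only [Finset.sum_add_distrib] at h2 ⊢
  rw [eb, ec] at h2
  linarith

theorem T_eq (a b c : ℕ → ℕ → ℝ) (m n0 n1 : ℕ) :
    T a b c m n0 n1 = ∑ j : Idx m ⊕ Idx m, ∑ k : Idx m ⊕ Idx m, ∑ i : Idx m ⊕ Idx m,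
      sgn i * sgn j * sgn k * (a (pos (m + 1) n0 i) (pos (m + 1) n1 j) *
        b (pos (m + 1) n1 j) (pos (m + 1) (n0 ^^^ n1) k) *
        c (pos (m + 1) (n0 ^^^ n1) k) (pos (m + 1) n0 i)) := by
  have := trace_triple sgn sgn sgn (M' a m n0 n1) (M' b m n1 (n0 ^^^ n1)) (M' c m (n0 ^^^ n1) n0)
  unfold T
  simp only [← Matrix.mul_assoc]
  rw [this]
  refine Finset.sum_congr rfl fun j _ => Finset.sum_congr rfl fun k _ =>
    Finset.sum_congr rfl fun i _ => ?_
  have e1 : M' a m n0 n1 i j = a (pos (m + 1) n0 i) (pos (m + 1) n1 j) := rfl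
  have e2 : M' b m n1 (n0 ^^^ n1) j k
    = b (pos (m + 1) n1 j) (pos (m + 1) (n0 ^^^ n1) k) := rfl
  have e3 : M' c m (n0 ^^^ n1) n0 k i
    = c (pos (m + 1) (n0 ^^^ n1) k) (pos (m + 1) n0 i) := rfl
  rw [e1, e2, e3]
  ring

end Vale.Agent.P075
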