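import Mathlib

/-! Positive semidefinite real matrices, square roots and the function `tr P^(3/2)`. -/

namespace Vale.Agent.P075

open Matrix

variable {ι κ : Type} [Fintype ι] [DecidableEq ι] [Fintype κ] [DecidableEq κ]

theorem spec (A : Matrix ι ι ℝ) (hA : Aᵀ = A) :
    ∃ (W : Matrix ι ι ℝ) (d : ι → ℝ), W * Wᵀ = 1 ∧ Wᵀ * W = 1 ∧ A * W = W * diagonal d := by
  have h : A.IsHermitian := by
    unfold IsHermitian
    rw [conjTranspose_eq_transpose_of_trivial, hA]
  refine ⟨(h.eigenvectorUnitary : Matrix ι ι ℝ), h.eigenvalues, ?_, ?_, ?_⟩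
  · have := (Matrix.mem_unitaryGroup_iff).1 h.eigenvectorUnitary.2
    rwa [star_eq_conjTranspose, conjTranspose_eq_transpose_of_trivial] at this
  · have := (Matrix.mem_unitaryGroup_iff').1 h.eigenvectorUnitary.2
    rwa [star_eq_conjTranspose, conjTranspose_eq_transpose_of_trivial] at this
  · ext i j
    have := congrFun (h.mulVec_eigenvectorBasis j) i
    rw [mul_diagonal, Matrix.mul_apply]
    simp only [IsHermitian.eigenvectorUnitary_apply]
    simp only [mulVec, dotProduct, Pi.smul_apply, smul_eq_mul] at this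
    rw [this, mul_comm]

/-- positive semidefinite -/
def Psd (A : Matrix ι ι ℝ) : Prop := Aᵀ = A ∧ ∀ v : ι → ℝ, 0 ≤ v ⬝ᵥ A *ᵥ v

omit [DecidableEq ι] in
theorem Psd.add {A B : Matrix ι ι ℝ} (hA : Psd A) (hB : Psd B) : Psd (A + B) := by
  refine ⟨by rw [transpose_add, hA.1, hB.1], fun v => ?_⟩
  rw [add_mulVec, dotProduct_add]
  exact add_nonneg (hA.2 v) (hB.2 v)

omit [DecidableEq ι] in
theorem Psd.smul {A : Matrix ι ι ℝ} (hA : Psd A) {c : ℝ} (hc : 0 ≤ c) : Psd (c • A) := by
  refine ⟨by rw [transpose_smul, hA.1], fun v => ?_⟩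
  rw [smul_mulVec, dotProduct_smul, smul_eq_mul]
  exact mul_nonneg hc (hA.2 v)

omit [DecidableEq ι] in
theorem Psd.zero : Psd (0 : Matrix ι ι ℝ) := by
  refine ⟨transpose_zero, fun v => ?_⟩
  simp

omit [DecidableEq ι] [DecidableEq κ] in
theorem quad_conj (A : Matrix ι ι ℝ) (B : Matrix κ ι ℝ) (v : κ → ℝ) :
    v ⬝ᵥ (B * A * Bᵀ) *ᵥ v = (Bᵀ *ᵥ v) ⬝ᵥ A *ᵥ (Bᵀ *ᵥ v) := by
  rw [← mulVec_mulVec, ← mulVec_mulVec, dotProduct_mulVec v B, mulVec_transpose]

omit [DecidableEq ι] [DecidableEq κ] in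
theorem Psd.conj {A : Matrix ι ι ℝ} (hA : Psd A) (B : Matrix κ ι ℝ) : Psd (B * A * Bᵀ) := by
  refine ⟨?_, fun v => ?_⟩
  · rw [transpose_mul, transpose_mul, transpose_transpose, hA.1, Matrix.mul_assoc]
  · rw [quad_conj]
    exact hA.2 _

theorem Psd.diag {d : ι → ℝ} (hd : ∀ i, 0 ≤ d i) : Psd (diagonal d) := by
  refine ⟨diagonal_transpose d, fun v => ?_⟩
  unfold dotProduct
  refine Finset.sum_nonneg fun i _ => ?_
  rw [mulVec_diagonal]
  have := hd i
  nlinarith [mul_nonneg this (mul_self_nonneg (v i))]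

theorem Psd.one : Psd (1 : Matrix ι ι ℝ) := by
  rw [← diagonal_one]
  exact Psd.diag fun _ => zero_le_one

omit [DecidableEq κ] in
theorem Psd.mul_transpose (B : Matrix κ ι ℝ) : Psd (B * Bᵀ) := by
  have := (Psd.one (ι := ι)).conj B
  rwa [Matrix.mul_one] at this

omit [DecidableEq ι] in
theorem Psd.transpose_mul (B : Matrix κ ι ℝ) : Psd (Bᵀ * B) := by
  have := Psd.mul_transpose Bᵀ
  rwa [transpose_transpose] at this

theorem eig_quad {A W : Matrix ι ι ℝ} {d : ι → ℝ} (h2 : Wᵀ * W = 1)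
    (h3 : A * W = W * diagonal d) (i : ι) :
    A *ᵥ (fun k => W k i) = d i • (fun k => W k i) ∧
      (fun k => W k i) ⬝ᵥ (fun k => W k i) = 1 := by
  constructor
  · ext k
    have := congrFun (congrFun h3 k) i
    rw [mul_diagonal, Matrix.mul_apply] at this
    simp only [mulVec, dotProduct, Pi.smul_apply, smul_eq_mul]
    rw [this, mul_comm]
  · have := congrFun (congrFun h2 i) i
    rw [Matrix.mul_apply, one_apply_eq] at this
    simpa [dotProduct] using this

theorem eq_of_spec {A W : Matrix ι ι ℝ} {d : ι → ℝ} (h1 : W * Wᵀ = 1)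
    (h3 : A * W = W * diagonal d) : A = W * diagonal d * Wᵀ := by
  rw [← h3, Matrix.mul_assoc, h1, Matrix.mul_one]

theorem exists_sqrt {P : Matrix ι ι ℝ} (hP : Psd P) : ∃ S, Psd S ∧ S * S = P := by
  obtain ⟨W, d, h1, h2, h3⟩ := spec P hP.1
  have hd : ∀ i, 0 ≤ d i := by
    intro i
    obtain ⟨e1, e2⟩ := eig_quad h2 h3 i
    have := hP.2 (fun k => W k i)
    rwa [e1, dotProduct_smul, e2, smul_eq_mul, mul_one] at this
  refine ⟨W * diagonal (fun i => Real.sqrt (d i)) * Wᵀ,
    (Psd.diag fun i => Real.sqrt_nonneg _).conj W, ?_⟩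
  have e : diagonal (fun i => Real.sqrt (d i)) * diagonal (fun i => Real.sqrt (d i))
      = diagonal d := by
    rw [diagonal_mul_diagonal]
    congr 1
    ext i
    exact Real.mul_self_sqrt (hd i)
  calc W * diagonal (fun i => Real.sqrt (d i)) * Wᵀ *
        (W * diagonal (fun i => Real.sqrt (d i)) * Wᵀ)
      = W * (diagonal (fun i => Real.sqrt (d i)) * (Wᵀ * W) *
          diagonal (fun i => Real.sqrt (d i))) * Wᵀ := by
        simp only [Matrix.mul_assoc]
    _ = P := by rw [h2, Matrix.mul_one, e, ← eq_of_spec h1 h3]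

omit [DecidableEq ι] in
theorem symm_dot {A : Matrix ι ι ℝ} (hA : Aᵀ = A) (v w : ι → ℝ) :
    v ⬝ᵥ A *ᵥ w = (A *ᵥ v) ⬝ᵥ w := by
  rw [dotProduct_mulVec, ← mulVec_transpose, hA]

theorem mono {S T : Matrix ι ι ℝ} (hS : Psd S) (hT : Psd T) (h : Psd (S * S - T * T)) :
    Psd (S - T) := by
  have hD : (S - T)ᵀ = S - T := by rw [transpose_sub, hS.1, hT.1]
  obtain ⟨W, d, h1, h2, h3⟩ := spec (S - T) hD
  have hd : ∀ i, 0 ≤ d i := by
    intro i
    obtain ⟨e1, e2⟩ := eig_quad h2 h3 i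
    set v : ι → ℝ := fun k => W k i with hv
    have hq := h.2 v
    have a1 := hS.2 v
    have a2 := hT.2 v
    have e3 : S *ᵥ v = T *ᵥ v + d i • v := by
      rw [← e1, sub_mulVec]; abel
    have e4 : v ⬝ᵥ S *ᵥ v = v ⬝ᵥ T *ᵥ v + d i := by
      rw [e3, dotProduct_add, dotProduct_smul, e2, smul_eq_mul, mul_one]
    have e5 : v ⬝ᵥ (S * S - T * T) *ᵥ v = d i * (v ⬝ᵥ S *ᵥ v + v ⬝ᵥ T *ᵥ v) := by
      rw [sub_mulVec, dotProduct_sub, ← mulVec_mulVec, ← mulVec_mulVec, symm_dot hS.1,
        symm_dot hT.1 v (T *ᵥ v), e4, e3]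
      simp only [add_dotProduct, dotProduct_add, smul_dotProduct, dotProduct_smul, e2,
        smul_eq_mul, dotProduct_comm (T *ᵥ v) v]
      ring
    by_contra hneg
    push Not at hneg
    rw [e5] at hq
    nlinarith
  rw [eq_of_spec h1 h3]
  exact (Psd.diag hd).conj W

theorem eq_zero_of_psd {A : Matrix ι ι ℝ} (h : Psd A) (h' : Psd (-A)) : A = 0 := by
  obtain ⟨W, d, h1, h2, h3⟩ := spec A h.1
  have hd : d = 0 := by
    ext i
    obtain ⟨e1, e2⟩ := eig_quad h2 h3 i
    have a1 := h.2 (fun k => W k i)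
    have a2 := h'.2 (fun k => W k i)
    rw [neg_mulVec, dotProduct_neg] at a2
    rw [e1, dotProduct_smul, e2, smul_eq_mul, mul_one] at a1 a2
    simp only [Pi.zero_apply]
    linarith
  rw [eq_of_spec h1 h3, hd]
  simp

theorem sqrt_unique {S T : Matrix ι ι ℝ} (hS : Psd S) (hT : Psd T) (h : S * S = T * T) :
    S = T := by
  have a1 : Psd (S - T) := mono hS hT (by rw [h, sub_self]; exact Psd.zero)
  have a2 : Psd (T - S) := mono hT hS (by rw [h, sub_self]; exact Psd.zero)
  have := eq_zero_of_psd a1 (by rwa [neg_sub])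
  exact sub_eq_zero.1 this

open Classical in
/-- the positive square root -/
noncomputable def rt (P : Matrix ι ι ℝ) : Matrix ι ι ℝ :=
  if h : Psd P then Classical.choose (exists_sqrt h) else 0

theorem rt_psd {P : Matrix ι ι ℝ} (hP : Psd P) : Psd (rt P) := by
  unfold rt
  rw [dif_pos hP]
  exact (Classical.choose_spec (exists_sqrt hP)).1

theorem rt_mul {P : Matrix ι ι ℝ} (hP : Psd P) : rt P * rt P = P := by
  unfold rt
  rw [dif_pos hP]
  exact (Classical.choose_spec (exists_sqrt hP)).2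

theorem Psd.mul_self {S : Matrix ι ι ℝ} (hS : Sᵀ = S) : Psd (S * S) := by
  have := Psd.mul_transpose S
  rwa [hS] at this

theorem rt_eq {S P : Matrix ι ι ℝ} (hS : Psd S) (h : S * S = P) : rt P = S := by
  have hP : Psd P := h ▸ Psd.mul_self hS.1
  exact sqrt_unique (rt_psd hP) hS (by rw [rt_mul hP, h])

theorem rt_mono {P Q : Matrix ι ι ℝ} (hP : Psd P) (hQ : Psd Q) (h : Psd (P - Q)) :
    Psd (rt P - rt Q) :=
  mono (rt_psd hP) (rt_psd hQ) (by rwa [rt_mul hP, rt_mul hQ])

theorem trace_nonneg {A : Matrix ι ι ℝ} (hA : Psd A) : 0 ≤ trace A := by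
  unfold trace
  refine Finset.sum_nonneg fun i _ => ?_
  have := hA.2 (Pi.single i 1)
  simpa using this

theorem trace_mul_nonneg {A B : Matrix ι ι ℝ} (hA : Psd A) (hB : Psd B) :
    0 ≤ trace (A * B) := by
  obtain ⟨S, hS, e⟩ := exists_sqrt hA
  have := trace_nonneg (hB.conj S)
  rw [hS.1, trace_mul_comm, ← Matrix.mul_assoc, e] at this
  exact this

/-- `tr P^(3/2)` -/
noncomputable def F (P : Matrix ι ι ℝ) : ℝ := trace (P * rt P)

theorem F_nonneg {P : Matrix ι ι ℝ} (hP : Psd P) : 0 ≤ F P :=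
  trace_mul_nonneg hP (rt_psd hP)

theorem klein {s t : Matrix ι ι ℝ} (hs : Psd s) (ht : Psd t) :
    3 / 2 * trace (t * t * s) ≤ trace (t * t * t) + 1 / 2 * trace (s * s * s) := by
  have hD : (t - s)ᵀ = t - s := by rw [transpose_sub, hs.1, ht.1]
  have h := trace_mul_nonneg (Psd.mul_self hD) (ht.add (hs.smul (c := 1 / 2) (by norm_num)))
  have c1 : trace (t * s * t) = trace (t * t * s) := by
    rw [trace_mul_comm, ← Matrix.mul_assoc]
  have c2 : trace (s * t * t) = trace (t * t * s) := by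
    rw [Matrix.mul_assoc, trace_mul_comm]
  have c3 : trace (t * s * s) = trace (s * s * t) := by
    rw [Matrix.mul_assoc, trace_mul_comm]
  have c4 : trace (s * t * s) = trace (s * s * t) := by
    rw [trace_mul_comm, ← Matrix.mul_assoc]
  simp only [Matrix.sub_mul, Matrix.mul_sub, Matrix.mul_add, Matrix.mul_smul, trace_add,
    trace_sub, trace_smul, smul_eq_mul, c1, c2, c3, c4] at h
  linarith

theorem tangent {X Y : Matrix ι ι ℝ} (hX : Psd X) (hY : Psd Y) :
    F X + 3 / 2 * trace ((Y - X) * rt X) ≤ F Y := by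
  have h := klein (rt_psd hX) (rt_psd hY)
  rw [rt_mul hX, rt_mul hY] at h
  unfold F
  rw [Matrix.sub_mul, trace_sub]
  linarith

theorem F_four {X : Matrix ι ι ℝ} (hX : Psd X) : F ((4 : ℝ) • X) = 8 * F X := by
  have e : rt ((4 : ℝ) • X) = (2 : ℝ) • rt X := by
    apply rt_eq ((rt_psd hX).smul (by norm_num))
    rw [Matrix.smul_mul, Matrix.mul_smul, smul_smul, rt_mul hX]
    norm_num
  unfold F
  rw [e, Matrix.smul_mul, Matrix.mul_smul, trace_smul, trace_smul, smul_eq_mul, smul_eq_mul]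
  ring

theorem conv4 {P Q : Matrix ι ι ℝ} (hP : Psd P) (hQ : Psd Q) :
    F ((2 : ℝ) • (P + Q)) ≤ 4 * (F P + F Q) := by
  have hX : Psd ((1 / 2 : ℝ) • (P + Q)) := (hP.add hQ).smul (by norm_num)
  have e : (2 : ℝ) • (P + Q) = (4 : ℝ) • ((1 / 2 : ℝ) • (P + Q)) := by
    rw [smul_smul]; norm_num
  rw [e, F_four hX]
  have a1 := tangent hX hP
  have a2 := tangent hX hQ
  have e2 : trace ((P - (1 / 2 : ℝ) • (P + Q)) * rt ((1 / 2 : ℝ) • (P + Q))) +
      trace ((Q - (1 / 2 : ℝ) • (P + Q)) * rt ((1 / 2 : ℝ) • (P + Q))) = 0 := by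
    rw [← trace_add, ← Matrix.add_mul]
    have : P - (1 / 2 : ℝ) • (P + Q) + (Q - (1 / 2 : ℝ) • (P + Q)) = 0 := by
      ext i j
      simp only [Matrix.add_apply, Matrix.sub_apply, Matrix.smul_apply, smul_eq_mul,
        Matrix.zero_apply]
      ring
    rw [this, Matrix.zero_mul, trace_zero]
  linarith

theorem F_conj {P H : Matrix ι ι ℝ} (hP : Psd P) (hH : Hᵀ = H) (hHH : H * H = 1) :
    F (H * P * H) = F P := by
  have e : rt (H * P * H) = H * rt P * H := by
    apply rt_eq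
    · have := (rt_psd hP).conj H
      rwa [hH] at this
    · calc H * rt P * H * (H * rt P * H) = H * (rt P * (H * H) * rt P) * H := by
            simp only [Matrix.mul_assoc]
        _ = H * P * H := by rw [hHH, Matrix.mul_one, rt_mul hP]
  unfold F
  rw [e]
  calc trace (H * P * H * (H * rt P * H)) = trace (H * (P * (H * H) * rt P * H)) := by
        simp only [Matrix.mul_assoc]
    _ = trace (P * rt P) := by
        rw [hHH, Matrix.mul_one, trace_mul_comm, Matrix.mul_assoc, hHH, Matrix.mul_one]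

omit [DecidableEq ι] [DecidableEq κ] in
theorem Psd.blocks {P : Matrix ι ι ℝ} {Q : Matrix κ κ ℝ} (hP : Psd P) (hQ : Psd Q) :
    Psd (fromBlocks P 0 0 Q) := by
  refine ⟨?_, fun v => ?_⟩
  · rw [fromBlocks_transpose, hP.1, hQ.1, transpose_zero, transpose_zero]
  · rw [fromBlocks_mulVec, ← Sum.elim_comp_inl_inr v, sumElim_dotProduct_sumElim]
    simp only [zero_mulVec, add_zero, zero_add, Sum.elim_comp_inl, Sum.elim_comp_inr]
    exact add_nonneg (hP.2 _) (hQ.2 _)

theorem F_blocks {P : Matrix ι ι ℝ} {Q : Matrix κ κ ℝ} (hP : Psd P) (hQ : Psd Q) :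
    F (fromBlocks P 0 0 Q) = F P + F Q := by
  have e : rt (fromBlocks P 0 0 Q) = fromBlocks (rt P) 0 0 (rt Q) := by
    apply rt_eq ((rt_psd hP).blocks (rt_psd hQ))
    rw [fromBlocks_multiply, rt_mul hP, rt_mul hQ]
    simp
  unfold F
  rw [e, fromBlocks_multiply]
  simp [trace, Fintype.sum_sum_type]

/-- the defect of additivity -/
noncomputable def G (P Q : Matrix ι ι ℝ) : ℝ := F (P + Q) - F P - F Q

theorem G_comm (P Q : Matrix ι ι ℝ) : G P Q = G Q P := by
  unfold G
  rw [add_comm P Q]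
  ring

theorem G_mono {P Q Q' : Matrix ι ι ℝ} (hP : Psd P) (hQ' : Psd Q') (hD : Psd (Q - Q')) :
    G P Q' ≤ G P Q := by
  set D := Q - Q' with hDdef
  have key : ∀ n : ℕ, 0 < n →
      G P Q' - 3 / 2 * (trace (D * rt Q) - trace (D * rt Q')) / n ≤ G P Q := by
    intro n hn
    have hn' : (0 : ℝ) < n := by exact_mod_cast hn
    let q : ℕ → Matrix ι ι ℝ := fun k => Q' + ((k : ℝ) / n) • D
    have hq : ∀ k, Psd (q k) := fun k => hQ'.add (hD.smul (by positivity))
    have hstep : ∀ k, q (k + 1) - q k = (1 / (n : ℝ)) • D := by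
      intro k
      simp only [q]
      rw [add_sub_add_left_eq_sub, ← sub_smul]
      congr 1
      push_cast
      ring
    have ind : ∀ k : ℕ, F (P + q 0) - F (q 0)
        - 3 / 2 * (trace (D * rt (q k)) - trace (D * rt (q 0))) / n ≤ F (P + q k) - F (q k) := by
      intro k
      induction k with
      | zero => simp
      | succ k ih =>
        have a1 := tangent (hP.add (hq k)) (hP.add (hq (k + 1)))
        have a2 := tangent (hq (k + 1)) (hq k)
        rw [add_sub_add_left_eq_sub, hstep, Matrix.smul_mul, trace_smul, smul_eq_mul] at a1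
        rw [← neg_sub (q (k + 1)) (q k), hstep, Matrix.neg_mul, trace_neg, Matrix.smul_mul,
          trace_smul, smul_eq_mul] at a2
        have a3 := trace_mul_nonneg hD (rt_mono (hP.add (hq k)) (hq k)
          (by rw [add_sub_cancel_right]; exact hP))
        rw [Matrix.mul_sub, trace_sub] at a3
        have a4 : 0 ≤ 1 / (n : ℝ) * (trace (D * rt (P + q k)) - trace (D * rt (q k))) :=
          mul_nonneg (by positivity) a3
        have e1 : 3 / 2 * (trace (D * rt (q (k + 1))) - trace (D * rt (q 0))) / n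
            = 3 / 2 * (trace (D * rt (q k)) - trace (D * rt (q 0))) / n
              + 3 / 2 * (1 / (n : ℝ) * trace (D * rt (q (k + 1))))
              - 3 / 2 * (1 / (n : ℝ) * trace (D * rt (q k))) := by ring
        rw [e1]
        nlinarith
    have h := ind n
    have e0 : q 0 = Q' := by simp [q]
    have en : q n = Q := by
      simp only [q]
      rw [div_self hn'.ne', one_smul, hDdef]
      abel
    rw [e0, en] at h
    unfold G
    linarith
  have lim : Filter.Tendsto
      (fun n : ℕ => G P Q' - 3 / 2 * (trace (D * rt Q) - trace (D * rt Q')) / n)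
      Filter.atTop (nhds (G P Q' - 0)) :=
    Filter.Tendsto.sub tendsto_const_nhds (tendsto_const_div_atTop_nhds_zero_nat _)
  rw [sub_zero] at lim
  refine le_of_tendsto lim ?_
  filter_upwards [Filter.eventually_gt_atTop 0] with n hn using key n hn

end Vale.Agent.P075
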